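import Vale.Agent.P197.Glue

namespace Vale.Agent.P197

open Equiv Finset

set_option linter.unusedSectionVars false

section

variable {P Q : Type} [Fintype P] [DecidableEq P] [Fintype Q] [DecidableEq Q]

theorem Good.cnt_le {row row' col : P → ℕ} (hG : Good row col) (hG' : Good row' col) (i : ℕ) :
    cnt row' i ≤ cnt row i := by
  have h : ∀ p, ∃ q, col q = col p ∧ row q = row' p := fun p => hG.surj p (hG'.lt p)
  choose q hq using h
  refine Finset.card_le_card_of_injOn q ?_ ?_
  · intro p hp
    simp only [Finset.coe_filter, Finset.mem_univ, true_and, Set.mem_ofPred_eq] at hp ⊢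
    rw [(hq p).2, hp]
  · intro a _ b _ hab
    exact hG'.inj a b (by rw [← (hq a).1, ← (hq b).1, hab]) (by rw [← (hq a).2, ← (hq b).2, hab])

theorem exists_odd_scale {X : Type} (n : ℕ) : ∀ (w0 : X → ℤ) (f0 : X), w0 f0 ≠ 0 →
    (w0 f0).natAbs ≤ n →
    ∃ (k : ℕ) (w : X → ℤ), (∀ f, w0 f = 2 ^ k * w f) ∧ ∃ f, (w f : ZMod 2) ≠ 0 := by
  induction n with
  | zero =>
    intro w0 f0 h1 h2
    omega
  | succ n ih =>
    intro w0 f0 h1 h2
    by_cases h : ∃ f, (w0 f : ZMod 2) ≠ 0
    · exact ⟨0, w0, by simp, h⟩
    · push Not at h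
      have h' : ∀ f, ∃ c, w0 f = 2 * c := fun f =>
        (ZMod.intCast_zmod_eq_zero_iff_dvd (w0 f) 2).1 (h f)
      choose w1 hw1 using h'
      have := hw1 f0
      obtain ⟨k, w, h3, h4⟩ := ih w1 f0 (by omega) (by omega)
      exact ⟨k + 1, w, fun f => by rw [hw1, h3]; ring, h4⟩

theorem fix_of_inj {row col lev : P → ℕ} (hG : Good row col)
    (hinj : ∀ p q, col p = col q → lev p = lev q → p = q) (r : ℕ) :
    Fix P lev (cnt row) r (cnt lev r) := by
  let row' : P → ℕ := fun p => (univ.filter fun q => col q = col p ∧ lev q < lev p).card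
  have hmono : ∀ p q, col p = col q → lev p < lev q → row' p < row' q := by
    intro p q hc hl
    apply Finset.card_lt_card
    rw [Finset.ssubset_iff_of_subset]
    · exact ⟨p, by simp [hc, hl], by simp⟩
    · intro x
      simp only [Finset.mem_filter, Finset.mem_univ, true_and]
      rintro ⟨h1, h2⟩
      exact ⟨h1.trans hc, h2.trans hl⟩
  have hG' : Good row' col := by
    constructor
    · intro p q h1 h2
      rcases lt_trichotomy (lev p) (lev q) with h | h | h
      · exact absurd h2 (hmono p q h1 h).ne
      · exact hinj p q h1 h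
      · exact absurd h2.symm (hmono q p h1.symm h).ne
    · intro p
      apply Finset.card_lt_card
      rw [Finset.ssubset_iff_of_subset]
      · exact ⟨p, by simp, by simp⟩
      · intro x
        simp +contextual
  have hcnt : cnt row' = cnt row := funext fun i => le_antisymm (hG.cnt_le hG' i) (hG'.cnt_le hG i)
  have key : ∀ g : Perm P, (∀ p, lev (g p) = lev p) → pt row' col (row' ∘ g) ≠ 0 →
      row' ∘ g = row' := by
    intro g hg hne
    have h1 : ∀ l p, lev p = l → row' (g p) = row' p := by
      intro l
      induction l using Nat.strong_induction_on with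
      | _ l ih =>
        have h2 : ∀ p ∈ univ.filter fun p => lev p = l, row' p ≤ row' (g p) := by
          intro p hp
          have hp' : lev p = l := by simpa using hp
          by_contra hlt
          obtain ⟨q, h3, h4⟩ := hG'.surj p (i := row' (g p)) (by have := hG'.lt p; omega)
          have h5 : lev q < lev p := by
            rcases lt_trichotomy (lev q) (lev p) with h | h | h
            · exact h
            · rw [hinj q p h3 h] at h4
              omega
            · have := hmono p q h3.symm h
              omega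
          have h6 := ih (lev q) (by omega) q rfl
          have h7 : q = p := hG'.inj_of_pt_ne_zero hne h3 (h6.trans h4)
          rw [h7] at h5
          omega
        have h3 : ∑ p ∈ univ.filter fun p => lev p = l, row' p =
            ∑ p ∈ univ.filter fun p => lev p = l, row' (g p) := by
          symm
          exact Finset.sum_bij' (fun p _ => g p) (fun p _ => g.symm p) (by simp [hg])
            (fun p hp => by
              have := hg (g.symm p)
              simp_all) (by simp) (by simp) (by simp)
        intro p hp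
        exact ((Finset.sum_eq_sum_iff_of_le h2).1 h3 p (by simpa using hp)).symm
    funext p
    exact h1 _ p rfl
  let w0 : (P → ℕ) → ℤ := fun f => ∑ g ∈ colGrp lev, pt row' col (f ∘ g)
  have hw0 : (fun f => (w0 f : ℂ)) ∈ Sp P (cnt row) := by
    have : (fun f => (w0 f : ℂ)) = ∑ g ∈ colGrp lev, fun f => (pt row' col (f ∘ g) : ℂ) := by
      funext f
      simp [w0]
    rw [this]
    refine Submodule.sum_mem _ fun g _ => ?_
    rw [← hcnt]
    exact Sp_perm g (pt_mem_Sp hG')
  have hinv : ∀ k : Perm P, (∀ p, lev (k p) = lev p) → ∀ f, w0 (f ∘ k) = w0 f := by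
    intro k hk f
    have hk' : k ∈ colGrp lev := mem_colGrp.2 hk
    exact Finset.sum_bij' (fun g _ => k * g) (fun g _ => k⁻¹ * g)
      (fun g hg => mul_mem_colGrp hk' hg) (fun g hg => mul_mem_colGrp (inv_mem_colGrp hk') hg)
      (by simp) (by simp) (fun g _ => rfl)
  have hpos : 0 < w0 row' := by
    refine Finset.sum_pos' (fun g hg => ?_) ⟨1, one_mem_colGrp lev, ?_⟩
    · by_cases h : pt row' col (row' ∘ g) = 0
      · exact h.ge
      · rw [key g (mem_colGrp.1 hg) h, pt_self hG']
        exact zero_le_one
    · simp [pt_self hG']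
  obtain ⟨k, w, h1, f, hf⟩ := exists_odd_scale _ w0 row' hpos.ne' le_rfl
  have hw : (fun f => (w f : ZMod 2)) ∈ Lb P (cnt row) := by
    refine ⟨w, ?_, fun _ => rfl⟩
    convert (Sp P (cnt row)).smul_mem ((2 : ℂ) ^ k)⁻¹ hw0 using 1
    funext f
    simp [h1]
  obtain ⟨f', h2, h3⟩ := exists_top_packed hw hf (univ.filter fun p => lev p = r)
  refine ⟨_, hw, ?_, f', h2, fun p hp => h3 p (by simpa using hp)⟩
  intro g hg f
  have := hinv g hg f
  rw [h1, h1] at this
  simp only [mul_left_cancel₀ (by positivity) this]

/-- number of positions carrying a letter `≥ k` -/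
def cge (f : P → ℕ) (k : ℕ) : ℕ := (univ.filter fun p => k ≤ f p).card

theorem cge_eq (f : P → ℕ) (k : ℕ) : cge f k = cnt f k + cge f (k + 1) := by
  unfold cge cnt
  rw [← Finset.card_union_of_disjoint]
  · congr 1
    ext p
    simp only [Finset.mem_filter, Finset.mem_univ, true_and, Finset.mem_union]
    omega
  · rw [Finset.disjoint_left]
    intro p
    simp only [Finset.mem_filter, Finset.mem_univ, true_and]
    omega

theorem cge_update (f : P → ℕ) (p : P) {j : ℕ} (h : f p < j) (k : ℕ) :
    cge (Function.update f p j) k = cge f k + if f p < k ∧ k ≤ j then 1 else 0 := by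
  unfold cge
  split_ifs with hk
  · rw [← Finset.card_insert_of_notMem (a := p) (by simp; omega)]
    congr 1
    ext q
    by_cases hq : q = p
    · simp [hq, hk.2]
    · simp [hq]
  · rw [add_zero]
    congr 1
    ext q
    by_cases hq : q = p
    · simp [hq]
      omega
    · simp [hq]

theorem gale_ryser (col : P → ℕ) (F : ℕ → ℕ) (K : ℕ)
    (hconv : ∀ i j, i ≤ j → F j + F (i + 1) ≤ F i + F (j + 1)) (h0 : F 0 = Fintype.card P)
    (hK : ∀ k, K ≤ k → F k = 0) (d : ℕ) :
    ∀ lab : P → ℕ, (∀ p q, col p = col q → lab p = lab q → p = q) → (∀ k, cge lab k ≤ F k) →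
      ∑ k ∈ range K, (F k - cge lab k) ≤ d →
      ∃ lab : P → ℕ, (∀ p q, col p = col q → lab p = lab q → p = q) ∧ ∀ k, cge lab k = F k := by
  induction d with
  | zero =>
    intro lab h1 h2 h3
    refine ⟨lab, h1, fun k => ?_⟩
    have h4 := h2 k
    by_cases hk : k < K
    · have := Finset.sum_eq_zero_iff.1 (Nat.le_zero.1 h3) k (Finset.mem_range.2 hk)
      omega
    · have := hK k (by omega)
      omega
  | succ d ih =>
    intro lab h1 h2 h3
    by_cases hall : ∀ k, cge lab k = F k
    · exact ⟨lab, h1, hall⟩
    push Not at hall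
    obtain ⟨k, hk⟩ := hall
    have hz : cge lab 0 = F 0 := by
      rw [h0]
      simp [cge]
    have hi1 : cge lab (Nat.findGreatest (fun i => cge lab i = F i) k) =
        F (Nat.findGreatest (fun i => cge lab i = F i) k) :=
      Nat.findGreatest_spec (P := fun i => cge lab i = F i) (Nat.zero_le k) hz
    have hi2 : ∀ l, Nat.findGreatest (fun i => cge lab i = F i) k < l → l ≤ k →
        cge lab l ≠ F l := fun l a b =>
      Nat.findGreatest_is_greatest (P := fun i => cge lab i = F i) a b
    have hi3 : Nat.findGreatest (fun i => cge lab i = F i) k ≤ k := Nat.findGreatest_le k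
    generalize Nat.findGreatest (fun i => cge lab i = F i) k = i at hi1 hi2 hi3
    have hik : i < k := lt_of_le_of_ne hi3 (by rintro rfl; exact hk hi1)
    have hex : ∃ j, k ≤ j ∧ cge lab (j + 1) = F (j + 1) := by
      refine ⟨k + K, by omega, ?_⟩
      have := h2 (k + K + 1)
      have := hK (k + K + 1) (by omega)
      omega
    obtain ⟨hj1, hj2⟩ := Nat.find_spec hex
    have hj3 : ∀ l, l < Nat.find hex → ¬ (k ≤ l ∧ cge lab (l + 1) = F (l + 1)) :=
      fun l a => Nat.find_min hex a
    generalize Nat.find hex = j at hj1 hj2 hj3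
    have hstrict : ∀ l, i < l → l ≤ j → cge lab l < F l := by
      intro l a b
      refine lt_of_le_of_ne (h2 l) ?_
      by_cases c : l ≤ k
      · exact hi2 l a c
      · intro e
        apply hj3 (l - 1) (by omega)
        rw [show l - 1 + 1 = l by omega]
        exact ⟨by omega, e⟩
    have hlt : cnt lab j < cnt lab i := by
      have a1 := cge_eq lab i
      have a2 := cge_eq lab j
      have a3 := hstrict (i + 1) (by omega) (by omega)
      have a4 := hstrict j (by omega) le_rfl
      have a5 := hconv i j (by omega)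
      omega
    obtain ⟨p, hp1, hp2⟩ : ∃ p, lab p = i ∧ ∀ q, col q = col p → lab q ≠ j := by
      by_contra hcon
      push Not at hcon
      have h' : ∀ p, ∃ q, lab p = i → col q = col p ∧ lab q = j := by
        intro p
        by_cases hp : lab p = i
        · obtain ⟨q, hq⟩ := hcon p hp
          exact ⟨q, fun _ => hq⟩
        · exact ⟨p, fun h => absurd h hp⟩
      choose q hq using h'
      refine absurd hlt (not_lt.2 (Finset.card_le_card_of_injOn q ?_ ?_))
      · intro a ha
        simp only [Finset.coe_filter, Finset.mem_univ, true_and, Set.mem_ofPred_eq] at ha ⊢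
        exact (hq a ha).2
      · intro a ha b hb hab
        simp only [Finset.coe_filter, Finset.mem_univ, true_and, Set.mem_ofPred_eq] at ha hb
        exact h1 a b (by rw [← (hq a ha).1, ← (hq b hb).1, hab]) (ha.trans hb.symm)
    have hup := cge_update lab p (j := j) (by omega)
    refine ih (Function.update lab p j) ?_ ?_ ?_
    · intro a b hc hl
      by_cases ha : a = p <;> by_cases hb : b = p
      · rw [ha, hb]
      · subst ha
        rw [Function.update_self, Function.update_of_ne hb] at hl
        exact absurd hl.symm (hp2 b hc.symm)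
      · subst hb
        rw [Function.update_self, Function.update_of_ne ha] at hl
        exact absurd hl (hp2 a hc)
      · rw [Function.update_of_ne ha, Function.update_of_ne hb] at hl
        exact h1 a b hc hl
    · intro l
      rw [hup]
      split_ifs with h
      · exact hstrict l (by omega) h.2
      · exact h2 l
    · refine Nat.le_of_lt_succ (lt_of_lt_of_le (Finset.sum_lt_sum ?_ ⟨k, ?_, ?_⟩) h3)
      · intro l _
        rw [hup]
        omega
      · rw [Finset.mem_range]
        by_contra h
        have := hK k (by omega)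
        have := h2 k
        omega
      · rw [hup, if_pos (by omega)]
        have := h2 k
        omega

theorem cge_eq_sum (f : P → ℕ) (M : ℕ) (h : ∀ p, f p < M) (k : ℕ) :
    cge f k = ∑ i ∈ Ico k M, cnt f i := by
  unfold cge cnt
  rw [Finset.card_eq_sum_card_fiberwise (f := f) (t := Ico k M)]
  · refine Finset.sum_congr rfl fun i hi => ?_
    rw [Finset.mem_Ico] at hi
    congr 1
    ext p
    simp only [Finset.mem_filter, Finset.mem_univ, true_and]
    omega
  · intro p hp
    simp only [Finset.coe_filter, Finset.mem_univ, true_and, Set.mem_ofPred_eq] at hp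
    simp [hp, h p]

end

/-- the sum of all parts of the level structure but the `k` largest -/
def tl (r b k : ℕ) : ℕ := tri (r - k) + min b (r + 1 - k)

theorem tl_succ {r b k : ℕ} : tl r b k = tl r b (k + 1) +
    ((r - k) + if r + 1 ≤ k + b ∧ k ≤ r then 1 else 0) := by
  unfold tl
  by_cases h : k < r
  · have : r - k = (r - (k + 1)) + 1 := by omega
    rw [this, tri_succ]
    split_ifs <;> omega
  · have h1 : r - k = 0 := by omega
    have h2 : r - (k + 1) = 0 := by omega
    rw [h1, h2]
    split_ifs <;> omega

theorem cnt_lev {r b : ℕ} (hb : b ≤ r + 1) (s : ℕ) :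
    cnt (fun p : Fin (tri r + b) => lev p) s = if s < r then s + 1 else if s = r then b else 0 := by
  unfold cnt
  rw [← Finset.card_map Fin.valEmbedding]
  have : (univ.filter fun p : Fin (tri r + b) => lev p = s).map Fin.valEmbedding =
      Ico (tri s) (min (tri (s + 1)) (tri r + b)) := by
    ext a
    simp only [Finset.mem_map, Finset.mem_filter, Finset.mem_univ, true_and,
      Fin.valEmbedding_apply, lev_eq_iff, Finset.mem_Ico]
    constructor
    · rintro ⟨p, hp, rfl⟩
      have := p.2
      omega
    · intro ha
      exact ⟨⟨a, by omega⟩, by simp; omega, rfl⟩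
  rw [this, Nat.card_Ico]
  have h1 := tri_succ s
  have h2 := tri_succ r
  split_ifs with h3 h4
  · have := tri_mono (show s + 1 ≤ r by omega)
    omega
  · subst h4
    omega
  · have := tri_mono (show r + 1 ≤ s by omega)
    omega

theorem base {M r b : ℕ} {ν : ℕ → ℕ} (hb : b ≤ r + 1) (hanti : Antitone ν) (hM : ν M = 0)
    (hsum : ∑ i ∈ range M, ν i = tri r + b) (hD : ∀ k, ∑ i ∈ Ico k M, ν i ≤ tl r b k) :
    Fix (Fin (tri r + b)) (fun p => lev p) ν r b := by
  let D : Finset (ℕ × ℕ) := (range M ×ˢ range (ν 0)).filter fun c => c.2 < ν c.1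
  have hD' : ∀ i j, (i, j) ∈ D ↔ j < ν i := by
    intro i j
    simp only [D, Finset.mem_filter, Finset.mem_product, Finset.mem_range]
    refine ⟨fun h => h.2, fun h => ⟨⟨?_, h.trans_le (hanti (Nat.zero_le i))⟩, h⟩⟩
    by_contra hi
    have := hanti (show M ≤ i by omega)
    omega
  let row : D → ℕ := fun c => c.1.1
  let col : D → ℕ := fun c => c.1.2
  have hrow : cnt row = ν := by
    funext i
    unfold cnt
    rw [← Finset.card_range (ν i)]
    refine Finset.card_bij (fun c _ => c.1.2) ?_ ?_ ?_
    · rintro ⟨⟨a, c⟩, h⟩ h'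
      simp only [Finset.mem_filter, Finset.mem_univ, true_and, row] at h'
      subst h'
      exact Finset.mem_range.2 ((hD' _ _).1 h)
    · rintro ⟨⟨a, c⟩, h⟩ h1 ⟨⟨a', c'⟩, h'⟩ h2 h3
      simp only [Finset.mem_filter, Finset.mem_univ, true_and, row] at h1 h2 h3
      simp [h1, h2, h3]
    · intro j hj
      exact ⟨⟨(i, j), (hD' _ _).2 (Finset.mem_range.1 hj)⟩, by simp [row], rfl⟩
  have hG : Good row col := by
    apply Good.symm _ (by rw [hrow]; exact hanti)
    constructor
    · rintro ⟨⟨a, c⟩, h⟩ ⟨⟨a', c'⟩, h'⟩ h1 h2
      simp only [row, col] at h1 h2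
      simp [h1, h2]
    · rintro ⟨⟨a, c⟩, h⟩
      rw [hrow]
      exact (hD' _ _).1 h
  have hlt : ∀ c, row c < M := by
    rintro ⟨⟨a, c⟩, h⟩
    simp only [D, Finset.mem_filter, Finset.mem_product, Finset.mem_range] at h
    exact h.1.1
  have hcge : ∀ k, cge row k = ∑ i ∈ Ico k M, ν i := fun k => by
    rw [cge_eq_sum row M hlt, hrow]
  obtain ⟨lab, h1, h2⟩ := gale_ryser col (tl r b) (r + 1)
    (fun i j hij => by
      have a1 := tl_succ (r := r) (b := b) (k := i)
      have a2 := tl_succ (r := r) (b := b) (k := j)
      split_ifs at a1 a2 <;> omega)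
    (by
      have := hcge 0
      rw [← Finset.range_eq_Ico, hsum] at this
      simp only [cge, Nat.zero_le, Finset.filter_true, Finset.card_univ] at this
      rw [this]
      simp only [tl]
      simp [hb])
    (fun k hk => by
      simp only [tl]
      rw [show r - k = 0 by omega, show r + 1 - k = 0 by omega]
      simp [tri])
    _ row hG.inj (fun k => by rw [hcge]; exact hD k) le_rfl
  let rel : ℕ → ℕ := fun s => if s = r then r + 1 - b else if b ≤ s + 1 then r - 1 - s else r - s
  have hle : ∀ p : Fin (tri r + b), lev p ≤ r := by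
    intro p
    have := p.2
    have h1 := tri_succ r
    rw [← Nat.lt_add_one_iff, ← not_le, le_lev_iff]
    omega
  have hc1 : ∀ k s0, (∀ s, s ≤ r → (rel s = k ↔ s = s0)) →
      cnt (fun p : Fin (tri r + b) => rel (lev p)) k =
        cnt (fun p : Fin (tri r + b) => lev p) s0 := by
    intro k s0 h
    unfold cnt
    congr 1
    ext p
    simp [h _ (hle p)]
  have hcnt : cnt (fun p : Fin (tri r + b) => rel (lev p)) = cnt lab := by
    funext k
    have a1 := cge_eq lab k
    rw [h2, h2, tl_succ (k := k)] at a1
    by_cases c1 : k + b = r + 1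
    · rw [hc1 k r, cnt_lev hb]
      · split_ifs at a1 ⊢ <;> omega
      · intro s hs
        simp only [rel]
        split_ifs <;> omega
    by_cases c2 : k + b ≤ r ∧ k < r
    · rw [hc1 k (r - 1 - k), cnt_lev hb]
      · split_ifs at a1 ⊢ <;> omega
      · intro s hs
        simp only [rel]
        split_ifs <;> omega
    by_cases c3 : r + 1 < k + b ∧ k ≤ r
    · rw [hc1 k (r - k), cnt_lev hb]
      · split_ifs at a1 ⊢ <;> omega
      · intro s hs
        simp only [rel]
        split_ifs <;> omega
    · rw [hc1 k (r + 1), cnt_lev hb]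
      · split_ifs at a1 ⊢ <;> omega
      · intro s hs
        simp only [rel]
        split_ifs <;> omega
  obtain ⟨e, he⟩ := exists_equiv_of_cnt_eq hcnt
  have := fix_of_inj (lev := fun p : Fin (tri r + b) => lev p) (hG.comp_equiv e) (by
    intro p q a1 a2
    apply e.injective
    apply h1 _ _ a1
    have b1 := congrFun he p
    have b2 := congrFun he q
    simp only [Function.comp_apply] at b1 b2
    rw [b1, b2, a2]) r
  rw [cnt_comp_equiv, hrow, cnt_lev hb] at this
  simpa using this

end Vale.Agent.P197
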