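import Mathlib

namespace Vale.Agent.P197

open Equiv Finset

set_option linter.unusedSectionVars false

section

variable {P Q : Type} [Fintype P] [DecidableEq P] [Fintype Q] [DecidableEq Q]

/-- number of positions carrying the letter `i` -/
def cnt (f : P → ℕ) (i : ℕ) : ℕ := (univ.filter fun p => f p = i).card

/-- `(row, col)` is a tableau: every column of size `c` is in bijection with the rows `0..c-1` -/
structure Good (row col : P → ℕ) : Prop where
  inj : ∀ p q, col p = col q → row p = row q → p = q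
  lt : ∀ p, row p < cnt col (col p)

/-- column group -/
def colGrp (col : P → ℕ) : Finset (Perm P) := univ.filter fun σ => ∀ p, col (σ p) = col p

/-- integral polytabloid as a function on words -/
def pt (row col : P → ℕ) (f : P → ℕ) : ℤ :=
  ∑ σ ∈ colGrp col, if f = row ∘ σ then (Perm.sign σ : ℤ) else 0

variable (P) in
/-- complex Specht space of functions on words, for row lengths `ν` -/
def Sp (ν : ℕ → ℕ) : Submodule ℂ ((P → ℕ) → ℂ) :=
  Submodule.span ℂ {x | ∃ row col : P → ℕ, Good row col ∧ cnt row = ν ∧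
    x = fun f => (pt row col f : ℂ)}

variable (P) in
/-- reduction mod 2 of the integer points of the Specht space -/
def Lb (ν : ℕ → ℕ) : AddSubgroup ((P → ℕ) → ZMod 2) where
  carrier := {v | ∃ w : (P → ℕ) → ℤ, (fun f => (w f : ℂ)) ∈ Sp P ν ∧ ∀ f, (w f : ZMod 2) = v f}
  zero_mem' := ⟨0, by convert (Sp P ν).zero_mem using 1; ext f; simp, by simp⟩
  add_mem' := by
    rintro a b ⟨w1, h1, h1'⟩ ⟨w2, h2, h2'⟩
    refine ⟨w1 + w2, ?_, fun f => by simp [h1', h2']⟩
    convert (Sp P ν).add_mem h1 h2 using 1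
    ext f
    simp
  neg_mem' := by
    rintro a ⟨w1, h1, h1'⟩
    refine ⟨-w1, ?_, fun f => by simp [h1']⟩
    convert (Sp P ν).neg_mem h1 using 1
    ext f
    simp

variable (P) in
/-- a nonzero vector mod 2 fixed by the stabiliser of `lev`, with a support word which puts the
level `r` in the rows `< h` -/
def Fix (lev : P → ℕ) (ν : ℕ → ℕ) (r h : ℕ) : Prop :=
  ∃ w ∈ Lb P ν, (∀ g : Perm P, (∀ p, lev (g p) = lev p) → ∀ f, w (f ∘ g) = w f) ∧
    ∃ f, w f ≠ 0 ∧ ∀ p, lev p = r → f p < h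

theorem mem_colGrp {col : P → ℕ} {σ : Perm P} : σ ∈ colGrp col ↔ ∀ p, col (σ p) = col p := by
  simp [colGrp]

theorem one_mem_colGrp (col : P → ℕ) : (1 : Perm P) ∈ colGrp col := by simp [mem_colGrp]

theorem mul_mem_colGrp {col : P → ℕ} {σ τ : Perm P} (h1 : σ ∈ colGrp col) (h2 : τ ∈ colGrp col) :
    σ * τ ∈ colGrp col := by
  rw [mem_colGrp] at *
  intro p
  simp [h1, h2]

theorem inv_mem_colGrp {col : P → ℕ} {σ : Perm P} (h1 : σ ∈ colGrp col) :
    σ⁻¹ ∈ colGrp col := by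
  rw [mem_colGrp] at *
  intro p
  rw [← h1 (σ⁻¹ p)]
  simp

theorem swap_mem_colGrp {col : P → ℕ} {p q : P} (h : col p = col q) :
    swap p q ∈ colGrp col := by
  rw [mem_colGrp]
  intro x
  rw [swap_apply_def]
  split_ifs with h1 h2 <;> simp_all

theorem cnt_comp_equiv (f : Q → ℕ) (e : P ≃ Q) : cnt (f ∘ e) = cnt f := by
  ext i
  unfold cnt
  exact Finset.card_bij' (fun p _ => e p) (fun q _ => e.symm q) (by simp) (by simp) (by simp)
    (by simp)

theorem Good.eq_of_comp_eq {row col : P → ℕ} (hG : Good row col) {σ τ : Perm P}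
    (h1 : σ ∈ colGrp col) (h2 : τ ∈ colGrp col) (h : row ∘ σ = row ∘ τ) : σ = τ := by
  ext p
  rw [mem_colGrp] at h1 h2
  exact hG.inj _ _ (by rw [h1, h2]) (congrFun h p)

theorem pt_comp {row col : P → ℕ} (hG : Good row col) {σ : Perm P} (h : σ ∈ colGrp col) :
    pt row col (row ∘ σ) = Perm.sign σ := by
  unfold pt
  rw [Finset.sum_eq_single σ]
  · simp
  · intro τ hτ hne
    rw [if_neg]
    intro h'
    exact hne (hG.eq_of_comp_eq hτ h h'.symm)
  · intro h'
    exact absurd h h'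

theorem pt_self {row col : P → ℕ} (hG : Good row col) : pt row col row = 1 := by
  simpa using pt_comp hG (one_mem_colGrp col)

theorem exists_of_pt_ne_zero {row col f : P → ℕ} (h : pt row col f ≠ 0) :
    ∃ σ ∈ colGrp col, f = row ∘ σ := by
  by_contra hne
  push Not at hne
  exact h (Finset.sum_eq_zero fun σ hσ => if_neg (hne σ hσ))

theorem pt_comp_colGrp (row col f : P → ℕ) {τ : Perm P} (h : τ ∈ colGrp col) :
    pt row col (f ∘ τ) = Perm.sign τ * pt row col f := by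
  unfold pt
  rw [Finset.mul_sum]
  refine Finset.sum_bij' (fun σ _ => σ * τ⁻¹) (fun σ _ => σ * τ) ?_ ?_ ?_ ?_ ?_
  · intro σ hσ
    exact mul_mem_colGrp hσ (inv_mem_colGrp h)
  · intro σ hσ
    exact mul_mem_colGrp hσ h
  · intro σ _
    simp
  · intro σ _
    simp
  · intro σ _
    have : (f ∘ τ = row ∘ σ) ↔ (f = row ∘ ⇑(σ * τ⁻¹)) := by
      constructor
      · intro h'
        ext p
        have := congrFun h' (τ⁻¹ p)
        simpa using this
      · intro h'
        rw [h']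
        ext p
        simp
    simp only [this]
    split_ifs
    · rw [Perm.sign_mul, Perm.sign_inv, mul_comm (Perm.sign σ), Units.val_mul, ← mul_assoc,
        ← Units.val_mul, Int.units_mul_self]
      simp
    · simp

theorem pt_swap (row col f : P → ℕ) {p q : P} (hpq : p ≠ q) (h : col p = col q) :
    pt row col (f ∘ swap p q) = - pt row col f := by
  rw [pt_comp_colGrp row col f (swap_mem_colGrp h), Perm.sign_swap hpq]
  simp

theorem Good.inj_of_pt_ne_zero {row col f : P → ℕ} (hG : Good row col) (h : pt row col f ≠ 0)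
    {p q : P} (hc : col p = col q) (hf : f p = f q) : p = q := by
  obtain ⟨σ, hσ, rfl⟩ := exists_of_pt_ne_zero h
  rw [mem_colGrp] at hσ
  exact σ.injective (hG.inj _ _ (by rw [hσ, hσ, hc]) hf)

theorem Good.lt_of_pt_ne_zero {row col f : P → ℕ} (hG : Good row col) (h : pt row col f ≠ 0)
    (p : P) : f p < cnt col (col p) := by
  obtain ⟨σ, hσ, rfl⟩ := exists_of_pt_ne_zero h
  rw [mem_colGrp] at hσ
  have := hG.lt (σ p)
  rwa [hσ] at this

theorem Good.comp_equiv {row col : Q → ℕ} (hG : Good row col) (e : P ≃ Q) :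
    Good (row ∘ e) (col ∘ e) where
  inj p q h1 h2 := e.injective (hG.inj _ _ h1 h2)
  lt p := by
    rw [cnt_comp_equiv]
    exact hG.lt (e p)

theorem pt_comp_equiv (row col : Q → ℕ) (e : P ≃ Q) (f : P → ℕ) :
    pt (row ∘ e) (col ∘ e) f = pt row col (f ∘ e.symm) := by
  unfold pt
  refine Finset.sum_bij' (fun σ _ => e.permCongr σ) (fun σ _ => e.symm.permCongr σ) ?_ ?_ ?_ ?_ ?_
  · intro σ hσ
    rw [mem_colGrp] at *
    intro q
    simpa using hσ (e.symm q)
  · intro σ hσ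
    rw [mem_colGrp] at *
    intro q
    simpa using hσ (e q)
  · intro σ _
    ext p
    simp
  · intro σ _
    ext p
    simp
  · intro σ _
    have : (f = (row ∘ e) ∘ σ) ↔ (f ∘ e.symm = row ∘ ⇑(e.permCongr σ)) := by
      constructor
      · rintro rfl
        ext p
        simp
      · intro h'
        ext p
        have := congrFun h' (e p)
        simpa using this
    simp only [this, Perm.sign_permCongr]

theorem pt_mem_Sp {row col : P → ℕ} (hG : Good row col) :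
    (fun f => (pt row col f : ℂ)) ∈ Sp P (cnt row) :=
  Submodule.subset_span ⟨row, col, hG, rfl, rfl⟩

theorem Sp_transport {ν : ℕ → ℕ} (e : P ≃ Q) {x : (Q → ℕ) → ℂ} (hx : x ∈ Sp Q ν) :
    (fun f : P → ℕ => x (f ∘ e.symm)) ∈ Sp P ν := by
  induction hx using Submodule.span_induction with
  | mem x hx =>
    obtain ⟨row, col, hG, rfl, rfl⟩ := hx
    have := pt_mem_Sp (hG.comp_equiv e)
    rw [cnt_comp_equiv] at this
    simpa only [pt_comp_equiv] using this
  | zero => exact (Sp P ν).zero_mem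
  | add x y _ _ hx hy => exact (Sp P ν).add_mem hx hy
  | smul a x _ hx => exact (Sp P ν).smul_mem a hx

theorem Sp_perm {ν : ℕ → ℕ} (g : Perm P) {x : (P → ℕ) → ℂ} (hx : x ∈ Sp P ν) :
    (fun f : P → ℕ => x (f ∘ g)) ∈ Sp P ν :=
  Sp_transport (g.symm : P ≃ P) hx

theorem Lb_transport {ν : ℕ → ℕ} (e : P ≃ Q) {x : (Q → ℕ) → ZMod 2} (hx : x ∈ Lb Q ν) :
    (fun f : P → ℕ => x (f ∘ e.symm)) ∈ Lb P ν := by
  obtain ⟨w, h1, h2⟩ := hx
  exact ⟨fun f => w (f ∘ e.symm), Sp_transport e h1, fun f => h2 _⟩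

theorem Lb_perm {ν : ℕ → ℕ} (g : Perm P) {x : (P → ℕ) → ZMod 2} (hx : x ∈ Lb P ν) :
    (fun f : P → ℕ => x (f ∘ g)) ∈ Lb P ν :=
  Lb_transport (g.symm : P ≃ P) hx

theorem pt_mem_Lb {row col : P → ℕ} (hG : Good row col) :
    (fun f => (pt row col f : ZMod 2)) ∈ Lb P (cnt row) :=
  ⟨pt row col, pt_mem_Sp hG, fun _ => rfl⟩

theorem Fix.transport {lev : Q → ℕ} {ν : ℕ → ℕ} {r h : ℕ} (hF : Fix Q lev ν r h) (e : P ≃ Q) :
    Fix P (lev ∘ e) ν r h := by
  obtain ⟨w, hw, hinv, f, hf, hfr⟩ := hF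
  refine ⟨fun f => w (f ∘ e.symm), Lb_transport e hw, ?_, f ∘ e, ?_, ?_⟩
  · intro g hg f
    have := hinv (e.permCongr g) (fun q => by simpa using hg (e.symm q)) (f ∘ e.symm)
    simp only
    rw [← this]
    congr 1
    ext q
    simp
  · simpa [Function.comp_assoc] using hf
  · intro p hp
    exact hfr (e p) hp

theorem cnt_eq_of_Sp {ν : ℕ → ℕ} {x : (P → ℕ) → ℂ} (hx : x ∈ Sp P ν) {f : P → ℕ} (hf : x f ≠ 0) :
    cnt f = ν := by
  by_contra hne
  apply hf
  clear hf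
  induction hx using Submodule.span_induction with
  | mem x hx =>
    obtain ⟨row, col, hG, rfl, rfl⟩ := hx
    by_contra h
    have h' : pt row col f ≠ 0 := by simpa using h
    obtain ⟨σ, -, rfl⟩ := exists_of_pt_ne_zero h'
    exact hne (cnt_comp_equiv row σ)
  | zero => rfl
  | add x y _ _ hx hy => simp [hx, hy]
  | smul a x _ hx => simp [hx]

theorem cnt_eq_of_Lb {ν : ℕ → ℕ} {x : (P → ℕ) → ZMod 2} (hx : x ∈ Lb P ν) {f : P → ℕ}
    (hf : x f ≠ 0) : cnt f = ν := by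
  obtain ⟨w, h1, h2⟩ := hx
  refine cnt_eq_of_Sp h1 ?_
  intro h
  apply hf
  have : w f = 0 := by simpa using h
  rw [← h2, this]
  simp

theorem cnt_sum_elim (f : P → ℕ) (g : Q → ℕ) : cnt (Sum.elim f g) = cnt f + cnt g := by
  ext i
  unfold cnt
  rw [← Finset.card_toLeft_add_card_toRight]
  congr 1
  · congr 1
    ext p
    simp
  · congr 1
    ext p
    simp

/-- the combined column function on a disjoint union -/
def sumCol (c1 : P → ℕ) (c2 : Q → ℕ) : P ⊕ Q → ℕ :=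
  Sum.elim (fun p => 2 * c1 p) (fun q => 2 * c2 q + 1)

theorem Good.sum {r1 c1 : P → ℕ} {r2 c2 : Q → ℕ} (h1 : Good r1 c1) (h2 : Good r2 c2) :
    Good (Sum.elim r1 r2) (sumCol c1 c2) where
  inj := by
    rintro (p | p) (q | q) hc hr <;> simp only [sumCol, Sum.elim_inl, Sum.elim_inr] at hc hr
    · rw [h1.inj p q (by omega) hr]
    · omega
    · omega
    · rw [h2.inj p q (by omega) hr]
  lt := by
    rintro (p | p)
    · have := h1.lt p
      simp only [sumCol, cnt_sum_elim, Sum.elim_inl, Pi.add_apply]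
      refine lt_of_lt_of_le this (le_trans (le_of_eq ?_) (Nat.le_add_right _ _))
      unfold cnt
      congr 1
      ext q
      simp
    · have := h2.lt p
      simp only [sumCol, cnt_sum_elim, Sum.elim_inr, Pi.add_apply]
      refine lt_of_lt_of_le this (le_trans (le_of_eq ?_) (Nat.le_add_left _ _))
      unfold cnt
      congr 1
      ext q
      simp

theorem exists_sumCongr_of_mapsTo {σ : Perm (P ⊕ Q)}
    (h : ∀ p, ∃ p', σ (Sum.inl p) = Sum.inl p') :
    ∃ (σ1 : Perm P) (σ2 : Perm Q), σ = Perm.sumCongr σ1 σ2 := by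
  have : Set.MapsTo σ (Set.range Sum.inl) (Set.range Sum.inl) := by
    rintro _ ⟨p, rfl⟩
    obtain ⟨p', hp'⟩ := h p
    exact ⟨p', hp'.symm⟩
  obtain ⟨⟨σ1, σ2⟩, h'⟩ := Perm.mem_sumCongrHom_range_of_perm_mapsTo_inl this
  exact ⟨σ1, σ2, h'.symm⟩

theorem pt_sum {r1 c1 : P → ℕ} {r2 c2 : Q → ℕ} (h1 : Good r1 c1) (h2 : Good r2 c2)
    (f : P ⊕ Q → ℕ) :
    pt (Sum.elim r1 r2) (sumCol c1 c2) f =
      pt r1 c1 (f ∘ Sum.inl) * pt r2 c2 (f ∘ Sum.inr) := by
  by_cases h : ∃ σ1 ∈ colGrp c1, ∃ σ2 ∈ colGrp c2, f ∘ Sum.inl = r1 ∘ σ1 ∧ f ∘ Sum.inr = r2 ∘ σ2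
  · obtain ⟨σ1, hσ1, σ2, hσ2, e1, e2⟩ := h
    have hf : f = Sum.elim r1 r2 ∘ ⇑(Perm.sumCongr σ1 σ2) := by
      ext (p | q)
      · simpa using congrFun e1 p
      · simpa using congrFun e2 q
    have hm : Perm.sumCongr σ1 σ2 ∈ colGrp (sumCol c1 c2) := by
      rw [mem_colGrp] at *
      rintro (p | q) <;> simp [sumCol, hσ1, hσ2]
    rw [e1, e2, pt_comp h1 hσ1, pt_comp h2 hσ2, hf, pt_comp (h1.sum h2) hm, Perm.sign_sumCongr]
    simp
  · have hR : pt r1 c1 (f ∘ Sum.inl) * pt r2 c2 (f ∘ Sum.inr) = 0 := by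
      by_contra hne
      obtain ⟨a, b⟩ := mul_ne_zero_iff.1 hne
      obtain ⟨σ1, hσ1, e1⟩ := exists_of_pt_ne_zero a
      obtain ⟨σ2, hσ2, e2⟩ := exists_of_pt_ne_zero b
      exact h ⟨σ1, hσ1, σ2, hσ2, e1, e2⟩
    rw [hR]
    by_contra hne
    obtain ⟨σ, hσ, rfl⟩ := exists_of_pt_ne_zero hne
    rw [mem_colGrp] at hσ
    obtain ⟨σ1, σ2, rfl⟩ : ∃ (σ1 : Perm P) (σ2 : Perm Q), σ = Perm.sumCongr σ1 σ2 := by
      apply exists_sumCongr_of_mapsTo
      intro p
      have := hσ (Sum.inl p)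
      rcases hs : σ (Sum.inl p) with p' | q'
      · exact ⟨p', rfl⟩
      · rw [hs] at this
        simp only [sumCol, Sum.elim_inl, Sum.elim_inr] at this
        omega
    refine h ⟨σ1, ?_, σ2, ?_, ?_, ?_⟩
    · rw [mem_colGrp]
      intro p
      simpa [sumCol] using hσ (Sum.inl p)
    · rw [mem_colGrp]
      intro p
      simpa [sumCol] using hσ (Sum.inr p)
    · ext p
      simp
    · ext p
      simp

theorem Sp_tensor {μ lam : ℕ → ℕ} {x : (P → ℕ) → ℂ} {y : (Q → ℕ) → ℂ} (hx : x ∈ Sp P μ)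
    (hy : y ∈ Sp Q lam) :
    (fun f : P ⊕ Q → ℕ => x (f ∘ Sum.inl) * y (f ∘ Sum.inr)) ∈ Sp (P ⊕ Q) (μ + lam) := by
  induction hx using Submodule.span_induction with
  | mem x hx =>
    obtain ⟨r1, c1, h1, rfl, rfl⟩ := hx
    induction hy using Submodule.span_induction with
    | mem y hy =>
      obtain ⟨r2, c2, h2, rfl, rfl⟩ := hy
      have := pt_mem_Sp (h1.sum h2)
      rw [cnt_sum_elim] at this
      simpa only [pt_sum h1 h2, Int.cast_mul] using this
    | zero =>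
      convert (Sp (P ⊕ Q) _).zero_mem using 1
      ext f
      simp
    | add y z _ _ hy hz =>
      convert (Sp (P ⊕ Q) _).add_mem hy hz using 1
      ext f
      simp [mul_add]
    | smul a y _ hy =>
      convert (Sp (P ⊕ Q) _).smul_mem a hy using 1
      ext f
      simp [mul_left_comm]
  | zero =>
    convert (Sp (P ⊕ Q) _).zero_mem using 1
    ext f
    simp
  | add x z _ _ hx hz =>
    convert (Sp (P ⊕ Q) _).add_mem hx hz using 1
    ext f
    simp [add_mul]
  | smul a x _ hx =>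
    convert (Sp (P ⊕ Q) _).smul_mem a hx using 1
    ext f
    simp [mul_assoc]

theorem Lb_tensor {μ lam : ℕ → ℕ} {x : (P → ℕ) → ZMod 2} {y : (Q → ℕ) → ZMod 2} (hx : x ∈ Lb P μ)
    (hy : y ∈ Lb Q lam) :
    (fun f : P ⊕ Q → ℕ => x (f ∘ Sum.inl) * y (f ∘ Sum.inr)) ∈ Lb (P ⊕ Q) (μ + lam) := by
  obtain ⟨w1, h1, h1'⟩ := hx
  obtain ⟨w2, h2, h2'⟩ := hy
  refine ⟨fun f => w1 (f ∘ Sum.inl) * w2 (f ∘ Sum.inr), ?_, fun f => by simp [h1', h2']⟩
  simpa only [Int.cast_mul] using Sp_tensor h1 h2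

/-- orbit sums -/
theorem orbit_sum {ν : ℕ → ℕ} (lev : P → ℕ) {x : (P → ℕ) → ZMod 2} (hx : x ∈ Lb P ν) (f0 : P → ℕ)
    (h0 : x f0 ≠ 0)
    (h : ∀ g : Perm P, (∀ p, lev (g p) = lev p) → x (f0 ∘ g) ≠ 0 → ∀ f, x (f ∘ g) = x f) :
    ∃ w ∈ Lb P ν, (∀ g : Perm P, (∀ p, lev (g p) = lev p) → ∀ f, w (f ∘ g) = w f) ∧ w f0 ≠ 0 := by
  classical
  let O : Finset ((P → ℕ) → ZMod 2) := (colGrp lev).image fun g : Perm P => fun f => x (f ∘ g)
  refine ⟨∑ y ∈ O, y, ?_, ?_, ?_⟩
  · refine AddSubgroup.sum_mem _ fun y hy => ?_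
    obtain ⟨g, -, rfl⟩ := Finset.mem_image.1 hy
    exact Lb_perm g hx
  · intro g hg f
    have hg' : g ∈ colGrp lev := mem_colGrp.2 hg
    simp only [Finset.sum_apply]
    refine Finset.sum_bij' (fun y _ => fun f => y (f ∘ g)) (fun y _ => fun f => y (f ∘ ⇑g⁻¹))
      ?_ ?_ ?_ ?_ ?_
    · intro y hy
      obtain ⟨k, hk, rfl⟩ := Finset.mem_image.1 hy
      exact Finset.mem_image.2 ⟨g * k, mul_mem_colGrp hg' hk, rfl⟩
    · intro y hy
      obtain ⟨k, hk, rfl⟩ := Finset.mem_image.1 hy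
      exact Finset.mem_image.2 ⟨g⁻¹ * k, mul_mem_colGrp (inv_mem_colGrp hg') hk, rfl⟩
    · intro y _
      funext f
      simp [Function.comp_def]
    · intro y _
      funext f
      simp [Function.comp_def]
    · intro y _
      rfl
  · simp only [Finset.sum_apply]
    rw [Finset.sum_eq_single x]
    · exact h0
    · intro y hy hne
      obtain ⟨k, hk, rfl⟩ := Finset.mem_image.1 hy
      by_contra h'
      exact hne (funext (h k (mem_colGrp.1 hk) h'))
    · intro hx'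
      exact absurd (Finset.mem_image.2 ⟨1, one_mem_colGrp lev, rfl⟩) hx'

end

end Vale.Agent.P197
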