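import Vale.Agent.P197.Base

namespace Vale.Agent.P197

open Finset

theorem persist {k x y s r b b' : ℕ} (hk : k ≤ x) (hxs : x ≤ s) (hsr : s < r) (hyx : y ≤ x)
    (hb : b ≤ r + 1) (hb' : b' ≤ s + 1) (hn : tri r + b = x + 2 * y + (tri s + b')) :
    tl s b' k + (x - k) + 2 * (y - k) ≤ tl r b k := by
  obtain ⟨u, rfl⟩ : ∃ u, s = k + u := ⟨s - k, by omega⟩
  have a1 := tri_succ (k + u)
  have a2 := tri_succ (k + u + 1)
  have a3 := tri_succ (k + u + 1 + 1)
  have a4 := tri_succ (k + u + 1 + 1 + 1)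
  have b1 := tri_succ u
  have b2 := tri_succ (u + 1)
  have b3 := tri_succ (u + 1 + 1)
  have hr : r ≤ k + u + 3 := by
    by_contra h
    have := tri_mono (show k + u + 1 + 1 + 1 + 1 ≤ r by omega)
    omega
  unfold tl
  rw [show k + u - k = u by omega]
  obtain rfl | rfl | rfl : r = k + u + 1 ∨ r = k + u + 1 + 1 ∨ r = k + u + 1 + 1 + 1 := by omega
  · rw [show k + u + 1 - k = u + 1 by omega]
    omega
  · rw [show k + u + 1 + 1 - k = u + 1 + 1 by omega]
    omega
  · rw [show k + u + 1 + 1 + 1 - k = u + 1 + 1 + 1 by omega]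
    omega

theorem sum_ite_lt (k M x : ℕ) (h : x ≤ M) : ∑ i ∈ Ico k M, (if i < x then 1 else 0) = x - k := by
  rw [Finset.sum_boole, ← Nat.card_Ico k x]
  simp only [Nat.cast_id]
  congr 1
  ext i
  simp only [Finset.mem_filter, Finset.mem_Ico]
  omega

theorem sum_piece (k M x y : ℕ) (h : x ≤ M) (hy : y ≤ x) :
    ∑ i ∈ Ico k M, piece x y i = (x - k) + 2 * (y - k) := by
  unfold piece
  rw [Finset.sum_add_distrib, ← Finset.mul_sum, sum_ite_lt k M x h, sum_ite_lt k M y (hy.trans h)]

theorem sum_tail_le {ν : ℕ → ℕ} {x c : ℕ} (D : ℕ) : ∀ y, y + D = x →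
    (∀ i, y ≤ i → i < x → ν i ≤ x - i + c) → ∑ i ∈ Ico y x, ν i ≤ tri D + c * D := by
  induction D with
  | zero =>
    intro y h _
    simp [← h]
  | succ D ih =>
    intro y h h'
    rw [Finset.sum_eq_sum_Ico_succ_bot (by omega), tri_succ]
    have a1 := ih (y + 1) (by omega) (fun i a b => h' i (by omega) b)
    have a2 := h' y le_rfl (by omega)
    have a3 : x - y = D + 1 := by omega
    rw [a3] at a2
    nlinarith

theorem le_of_steps {ν : ℕ → ℕ} {x y c : ℕ} (h0 : ν (x - 1) ≤ 1 + c)
    (h : ∀ i, y < i → i < x → ν (i - 1) ≤ ν i + 1) (d : ℕ) :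
    ∀ i, i + d + 1 = x → y ≤ i → ν i ≤ x - i + c := by
  induction d with
  | zero =>
    intro i hi _
    rw [show i = x - 1 by omega]
    omega
  | succ d ih =>
    intro i hi hy
    have a1 := ih (i + 1) (by omega) (by omega)
    have a2 := h (i + 1) (by omega) (by omega)
    rw [Nat.add_sub_cancel] at a2
    omega

theorem big_triple {R D Y : ℕ} (hY : 1 ≤ Y) (h : tri R < Y * (R + 1) + (tri D + 1 * D)) :
    R + 1 ≤ D + 3 * Y := by
  by_contra hc
  obtain ⟨e, rfl⟩ : ∃ e, R = D + 3 * Y + e := ⟨R - (D + 3 * Y), by omega⟩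
  have a1 := two_mul_tri (D + 3 * Y + e)
  have a2 := two_mul_tri D
  have a3 : D ≤ D * Y := Nat.le_mul_of_pos_right D hY
  nlinarith [Nat.zero_le (D * e), Nat.zero_le (Y * e), Nat.zero_le (e * e), Nat.zero_le (Y * Y)]

/-- the induction hypothesis -/
def Concl (M r b : ℕ) (ν : ℕ → ℕ) : Prop :=
  Fix (Fin (tri r + b)) (fun p => lev p) ν r b ∧
    ((∃ k, tl r b k < ∑ i ∈ Ico k M, ν i) → ν r = 0 → ∃ y h, 1 ≤ y ∧ ν y + 2 ≤ ν (y - 1) ∧
      Fix (Fin (tri r + b)) (fun p => lev p) ν r h ∧
      ∀ x, ν x = 0 → r + 1 - b ≤ (x - h) + 2 * (y - h))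

theorem main_fix (M n : ℕ) : ∀ (r b : ℕ) (ν : ℕ → ℕ), tri r + b = n → b ≤ r + 1 → Antitone ν →
    ν M = 0 → ∑ i ∈ range M, ν i = tri r + b → Concl M r b ν := by
  induction n using Nat.strong_induction_on with
  | _ n ih =>
  intro r b ν hn hb hanti hM hsum
  by_cases hD : ∀ k, ∑ i ∈ Ico k M, ν i ≤ tl r b k
  · refine ⟨base hb hanti hM hsum hD, ?_⟩
    rintro ⟨k, hk⟩
    exact absurd (hD k) (not_le.2 hk)
  push Not at hD
  have hk1 := Nat.find_spec hD
  have hk2 : ∀ l, l < Nat.find hD → ∑ i ∈ Ico l M, ν i ≤ tl r b l :=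
    fun l a => not_lt.1 (Nat.find_min hD a)
  generalize Nat.find hD = k at hk1 hk2
  have hex : ∃ x, ν x = 0 := ⟨M, hM⟩
  have hx0 := Nat.find_spec hex
  have hx1 : ∀ i, i < Nat.find hex → 0 < ν i := fun i a => Nat.pos_of_ne_zero (Nat.find_min hex a)
  generalize Nat.find hex = x at hx0 hx1
  have hx2 : ∀ x', ν x' = 0 → x ≤ x' := fun x' h => by
    by_contra hc
    have := hx1 x' (by omega)
    omega
  have hx3 : ∀ i, x ≤ i → ν i = 0 := fun i hi => by
    have := hanti hi
    omega
  have hxM : x ≤ M := hx2 M hM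
  have htail : ∀ l, l ≤ x → ∑ i ∈ Ico l M, ν i = ∑ i ∈ Ico l x, ν i := by
    intro l hl
    rw [← Finset.sum_Ico_consecutive ν hl hxM, Finset.sum_eq_zero (s := Ico x M), add_zero]
    intro i hi
    exact hx3 i (Finset.mem_Ico.1 hi).1
  have hkx : k < x := by
    by_contra hc
    rw [Finset.sum_eq_zero (fun i hi => hx3 i (by have := (Finset.mem_Ico.1 hi).1; omega))] at hk1
    omega
  have hk0 : 1 ≤ k := by
    by_contra hc
    obtain rfl : k = 0 := by omega
    rw [← Finset.range_eq_Ico, hsum] at hk1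
    simp only [tl, Nat.sub_zero] at hk1
    omega
  have hr0 : 1 ≤ r := by
    by_contra hc
    obtain rfl : r = 0 := by omega
    have a1 : ∑ i ∈ range 2, ν i ≤ ∑ i ∈ range M, ν i :=
      Finset.sum_le_sum_of_subset (Finset.range_subset_range.2 (by omega))
    have a2 := hx1 0 (by omega)
    have a3 := hx1 1 (by omega)
    simp only [Finset.sum_range_succ, Finset.range_zero, Finset.sum_empty, tri] at a1 hsum
    omega
  have hstep : ∀ y, y ≤ x → (y = 0 ∨ ν y + 2 + (if y = x then 1 else 0) ≤ ν (y - 1)) →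
      b ≤ x + 2 * y → ∃ s b' lam, s < r ∧ b' ≤ s + 1 ∧ tri r + b = x + 2 * y + (tri s + b') ∧
        ν = piece x y + lam ∧ Concl M s b' lam ∧
        ∀ l, ∑ i ∈ Ico l M, ν i = (x - l) + 2 * (y - l) + ∑ i ∈ Ico l M, lam i := by
    intro y hyx hy hbγ
    have hle : ∀ i, piece x y i ≤ ν i := by
      intro i
      unfold piece
      by_cases a1 : i < y
      · have a2 := hanti (show i ≤ y - 1 by omega)
        have a3 := hx1 y
        split_ifs at hy ⊢ <;> omega
      · have a3 := hx1 i
        split_ifs <;> omega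
    have hν : ν = piece x y + fun i => ν i - piece x y i := by
      funext i
      have := hle i
      simp only [Pi.add_apply]
      omega
    have hl : ∀ l, ∑ i ∈ Ico l M, ν i =
        (x - l) + 2 * (y - l) + ∑ i ∈ Ico l M, (ν i - piece x y i) := by
      intro l
      rw [← sum_piece l M x y hxM hyx, ← Finset.sum_add_distrib]
      exact Finset.sum_congr rfl fun i _ => congrFun hν i
    have hl0 := hl 0
    rw [← Finset.range_eq_Ico, hsum] at hl0
    obtain ⟨s, b', h1, h2, h3⟩ : ∃ s b', s < r ∧ b' ≤ s + 1 ∧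
        tri r + b = x + 2 * y + (tri s + b') := by
      by_cases hz : tri r + b = x + 2 * y
      · exact ⟨0, 0, hr0, by omega, by simpa [tri] using hz⟩
      · have a1 := tri_lev_le (tri r + b - (x + 2 * y) - 1)
        have a2 := lt_tri_lev_succ (tri r + b - (x + 2 * y) - 1)
        rw [tri_succ] at a2
        generalize lev (tri r + b - (x + 2 * y) - 1) = s at a1 a2
        refine ⟨s, tri r + b - (x + 2 * y) - tri s, ?_, by omega, by omega⟩
        exact tri_strictMono.lt_iff_lt.1 (by omega)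
    refine ⟨s, b', _, h1, h2, h3, hν, ih (tri s + b') (by omega) s b' _ rfl h2 ?_ ?_ (by omega), hl⟩
    · apply antitone_nat_of_succ_le
      intro i
      have a1 := hanti (show i ≤ i + 1 by omega)
      have a2 := hx3 (i + 1)
      unfold piece
      by_cases a3 : i + 1 = y
      · subst a3
        have a4 := hy.resolve_left (by omega)
        rw [Nat.add_sub_cancel] at a4
        split_ifs at a4 ⊢ <;> omega
      · split_ifs <;> omega
    · simp [hM]
  have hsingle : b ≤ x → r ≤ x → Fix (Fin (tri r + b)) (fun p => lev p) ν r b := by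
    intro a1 a2
    obtain ⟨s, b', lam, h1, h2, h3, h4, h5, -⟩ := hstep 0 (Nat.zero_le _) (Or.inl rfl) (by omega)
    rw [h4]
    exact step (Nat.zero_le _) h1 h2 h3 h5.1 (by omega) (by omega)
  by_cases hxr : r + 1 ≤ x
  · refine ⟨hsingle (by omega) (by omega), fun _ h => ?_⟩
    have := hx1 r (by omega)
    omega
  have hw : ν k ≤ r + 1 - k := by
    have a1 := hk2 (k - 1) (by omega)
    rw [Finset.sum_eq_sum_Ico_succ_bot (by omega), tl_succ, show k - 1 + 1 = k by omega] at a1
    have a2 := hanti (show k - 1 ≤ k by omega)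
    split_ifs at a1 <;> omega
  classical
  have hy1 := Nat.findGreatest_spec
    (P := fun y => y = 0 ∨ ν y + 2 + (if y = x then 1 else 0) ≤ ν (y - 1)) (Nat.zero_le x)
    (Or.inl rfl)
  have hy2 : ∀ l, Nat.findGreatest
      (fun y => y = 0 ∨ ν y + 2 + (if y = x then 1 else 0) ≤ ν (y - 1)) x < l → l ≤ x →
      ¬ (l = 0 ∨ ν l + 2 + (if l = x then 1 else 0) ≤ ν (l - 1)) := fun l a b =>
    Nat.findGreatest_is_greatest
      (P := fun y => y = 0 ∨ ν y + 2 + (if y = x then 1 else 0) ≤ ν (y - 1)) a b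
  have hy3 := Nat.findGreatest_le
    (P := fun y => y = 0 ∨ ν y + 2 + (if y = x then 1 else 0) ≤ ν (y - 1)) x
  generalize Nat.findGreatest
    (fun y => y = 0 ∨ ν y + 2 + (if y = x then 1 else 0) ≤ ν (y - 1)) x = y at hy1 hy2 hy3
  have hst : ∀ i, y < i → i < x → ν (i - 1) ≤ ν i + 1 := by
    intro i a1 a2
    have := hy2 i a1 a2.le
    rw [if_neg a2.ne] at this
    omega
  have hst0 : y < x → ν (x - 1) ≤ 1 + 1 := by
    intro a1
    have := hy2 x a1 le_rfl
    rw [if_pos rfl] at this
    omega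
  rw [htail k hkx.le] at hk1
  by_cases hyk : y ≤ k
  · have a1 : ∑ i ∈ Ico k x, ν i ≤ tri (x - k) + 1 * (x - k) :=
      sum_tail_le (x - k) k (by omega) fun i a b =>
        le_of_steps (hst0 (by omega)) hst (x - i - 1) i (by omega) (by omega)
    unfold tl at hk1
    have a2 : x = r := by
      by_contra hc
      have a3 := tri_mono (show x - k + 1 ≤ r - k by omega)
      rw [tri_succ] at a3
      omega
    subst a2
    have a3 : 2 ≤ ν (x - 1) := by
      by_contra hc
      have a4 : ∑ i ∈ Ico k x, ν i ≤ tri (x - k) + 0 * (x - k) :=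
        sum_tail_le (x - k) k (by omega) fun i a b =>
          le_of_steps (c := 0) (by omega) hst (x - i - 1) i (by omega) (by omega)
      omega
    have hF := hsingle (by omega) le_rfl
    refine ⟨hF, fun _ _ => ⟨x, b, by omega, by omega, hF, fun x' h' => ?_⟩⟩
    have := hx2 x' h'
    omega
  · have a1 : ∑ i ∈ Ico y x, ν i ≤ tri (x - y) + 1 * (x - y) :=
      sum_tail_le (x - y) y (by omega) fun i a b =>
        le_of_steps (hst0 (by omega)) hst (x - i - 1) i (by omega) (by omega)
    have a2 : ∑ i ∈ Ico k y, ν i ≤ (y - k) * (r - k + 1) := by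
      rw [← Nat.card_Ico k y, ← smul_eq_mul]
      apply Finset.sum_le_card_nsmul
      intro i hi
      have := hanti (Finset.mem_Ico.1 hi).1
      omega
    rw [← Finset.sum_Ico_consecutive ν (show k ≤ y by omega) hy3] at hk1
    have a3 := big_triple (R := r - k) (D := x - y) (Y := y - k) (by omega) (by
      unfold tl at hk1
      omega)
    have hγ : r + 3 ≤ x + 2 * y := by omega
    obtain ⟨s, b', lam, h1, h2, h3, h4, h5, h6⟩ := hstep y hy3 hy1 (by omega)
    obtain ⟨h', h7, h8⟩ : ∃ h', Fix (Fin (tri s + b')) (fun p => lev p) lam s h' ∧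
        s + 1 - b' ≤ (x - h') + 2 * (y - h') := by
      by_cases hsx : s + 1 ≤ x
      · exact ⟨b', h5.1, by omega⟩
      have b1 := persist hkx.le (show x ≤ s by omega) h1 hy3 hb h2 h3
      have b2 := h6 k
      rw [htail k hkx.le, ← Finset.sum_Ico_consecutive ν (show k ≤ y by omega) hy3] at b2
      have b3 : ∀ i, ν i = piece x y i + lam i := fun i => congrFun h4 i
      obtain ⟨y', h', c1, c2, c3, c4⟩ := h5.2 ⟨k, by omega⟩ (by
        have := b3 s
        have := hx3 s (by omega)
        omega)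
      have c5 := c4 x (by
        have := b3 x
        omega)
      have c6 : y' ≤ y := by
        by_contra hc
        have d1 := b3 y'
        have d2 := b3 (y' - 1)
        have d3 := hx3 (y' - 1)
        have d4 := hy2 y' (by omega) (by omega)
        unfold piece at d1 d2
        split_ifs at d1 d2 d4 <;> omega
      exact ⟨h', c3, by omega⟩
    have hF : ∀ h, b ≤ min h x + 2 * min h y → Fix (Fin (tri r + b)) (fun p => lev p) ν r h := by
      intro h hh
      rw [h4]
      exact step hy3 h1 h2 h3 h7 h8 hh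
    refine ⟨hF b (by omega), fun _ _ => ?_⟩
    have hy4 : ν y + 2 ≤ ν (y - 1) := by omega
    by_cases hb3 : b ≤ 3 * y
    · refine ⟨y, (b + 2) / 3, by omega, hy4, hF _ (by omega), fun x' h' => ?_⟩
      have := hx2 x' h'
      omega
    · refine ⟨y, b - 2 * y, by omega, hy4, hF _ (by omega), fun x' h' => ?_⟩
      have := hx2 x' h'
      omega

end Vale.Agent.P197
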