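import Vale.Agent.P197.James

namespace Vale.Agent.P197

open Equiv Finset

set_option linter.unusedSectionVars false

section

variable {P : Type} [Fintype P] [DecidableEq P]

/-- barycentric coordinates on the cells of the staircase -/
structure Tri (m : ℕ) (a b c : P → ℕ) : Prop where
  sum : ∀ p, a p + b p + c p + 1 = m
  inj : ∀ p q, a p = a q → b p = b q → p = q
  surj : ∀ i j, i + j < m → ∃ p, a p = i ∧ b p = j

theorem Tri.swap12 {m : ℕ} {a b c : P → ℕ} (h : Tri m a b c) : Tri m b a c where
  sum p := by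
    have := h.sum p
    omega
  inj p q h1 h2 := h.inj p q h2 h1
  surj i j hij := by
    obtain ⟨p, h1, h2⟩ := h.surj j i (by omega)
    exact ⟨p, h2, h1⟩

theorem Tri.swap23 {m : ℕ} {a b c : P → ℕ} (h : Tri m a b c) : Tri m a c b where
  sum p := by
    have := h.sum p
    omega
  inj p q h1 h2 := h.inj p q h1 (by
    have := h.sum p
    have := h.sum q
    omega)
  surj i j hij := by
    obtain ⟨p, h1, h2⟩ := h.surj i (m - 1 - i - j) (by omega)
    have := h.sum p
    exact ⟨p, h1, by omega⟩

theorem Tri.swap13 {m : ℕ} {a b c : P → ℕ} (h : Tri m a b c) : Tri m c b a :=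
  h.swap12.swap23.swap12

theorem Tri.cnt_eq {m : ℕ} {a b c : P → ℕ} (h : Tri m a b c) (i : ℕ) : cnt a i = m - i := by
  unfold cnt
  rw [← Finset.card_range (m - i)]
  refine Finset.card_bij (fun p _ => b p) ?_ ?_ ?_
  · intro p hp
    have h1 : a p = i := by simpa using hp
    have := h.sum p
    rw [Finset.mem_range]
    omega
  · intro p hp q hq h3
    have h1 : a p = i := by simpa using hp
    have h2 : a q = i := by simpa using hq
    exact h.inj p q (h1.trans h2.symm) h3
  · intro j hj
    rw [Finset.mem_range] at hj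
    obtain ⟨p, h1, h2⟩ := h.surj i j (by omega)
    exact ⟨p, by simpa using h1, h2⟩

theorem Tri.good {m : ℕ} {a b c : P → ℕ} (h : Tri m a b c) : Good a b where
  inj p q h1 h2 := h.inj p q h2 h1
  lt p := by
    rw [h.swap12.cnt_eq]
    have := h.sum p
    omega

theorem Tri.unique {m : ℕ} {a b c : P → ℕ} (h : Tri m a b c) {t : P → ℕ}
    (h1 : ∀ p q, b p = b q → t p = t q → p = q) (h2 : ∀ p, t p + c p < m)
    (h3 : ∀ p q, c p = c q → t p = t q → p = q) : t = a := by
  have key : ∀ d p, a p + b p = d → t p = a p := by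
    intro d
    induction d using Nat.strong_induction_on with
    | _ d ih =>
      have s1 : ∀ p, a p + b p = d → a p ≤ t p := by
        intro p hp
        by_contra hc
        have := h.sum p
        obtain ⟨q, e1, e2⟩ := h.surj (t p) (b p) (by omega)
        have e3 := ih (a q + b q) (by omega) q rfl
        have e4 := h1 q p e2 (e3.trans e1)
        rw [e4] at e1
        omega
      have s2 : ∀ e p, b p = e → a p + b p = d → t p = a p := by
        intro e
        induction e using Nat.strong_induction_on with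
        | _ e ihe =>
          intro p hp hd
          have a1 := s1 p hd
          have a2 := h.sum p
          have a3 := h2 p
          by_contra hc
          obtain ⟨q, e1, e2⟩ := h.surj (t p) (d - t p) (by omega)
          have a4 := h.sum q
          have e3 := ihe (b q) (by omega) q rfl (by omega)
          have e4 := h3 q p (by omega) (e3.trans e1)
          rw [e4] at e1
          omega
      exact fun p hp => s2 _ p rfl hp
  funext p
  exact key _ p rfl

theorem parity_sum {m : ℕ} {a b c : P → ℕ} (h : Tri m a b c) (w : (P → ℕ) → ZMod 2)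
    (hinv : ∀ g : Perm P, (∀ p, a (g p) = a p) → ∀ f, w (f ∘ g) = w f) (f0 : P → ℕ) :
    ∑ g : Perm P, (pt c b (c ∘ ⇑g⁻¹) : ZMod 2) * (pt a c (a ∘ ⇑g⁻¹) : ZMod 2) * w (f0 ∘ g) =
      w f0 := by
  classical
  have hcb : Good c b := h.swap13.good
  have hac : Good a c := h.swap23.good
  have hch : ∀ t : P → ℕ, ∃ σ : Perm P, (∃ p q, p ≠ q ∧ b p = b q ∧ t p = t q) →
      ∃ p q, p ≠ q ∧ b p = b q ∧ t p = t q ∧ σ = swap p q := by
    intro t
    by_cases ht : ∃ p q, p ≠ q ∧ b p = b q ∧ t p = t q
    · obtain ⟨p, q, h1, h2, h3⟩ := ht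
      exact ⟨swap p q, fun _ => ⟨p, q, h1, h2, h3, rfl⟩⟩
    · exact ⟨1, fun h' => absurd h' ht⟩
  choose σ hσ using hch
  have hswap : ∀ (t : P → ℕ) (p q : P), t p = t q → t ∘ swap p q = t := by
    intro t p q ht
    funext x
    simp only [Function.comp_apply, swap_apply_def]
    split_ifs with h1 h2 <;> simp_all
  have hmul : ∀ (t : P → ℕ) (p q : P) (g : Perm P),
      t ∘ ⇑(swap p q * g)⁻¹ = (t ∘ ⇑g⁻¹) ∘ swap p q := by
    intro t p q g
    funext x
    simp
  rw [← Finset.sum_filter_add_sum_filter_not univ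
    (fun g : Perm P => ∃ p q, p ≠ q ∧ b p = b q ∧ (a ∘ ⇑g⁻¹) p = (a ∘ ⇑g⁻¹) q)]
  rw [Finset.sum_involution (fun (g : Perm P) _ => σ (a ∘ ⇑g⁻¹) * g), zero_add, Finset.sum_eq_single 1]
  · simp [pt_self hcb, pt_self hac]
  · intro g hg hg1
    by_contra hne
    apply hg1
    have hg' : ∀ p q, b p = b q → (a ∘ ⇑g⁻¹) p = (a ∘ ⇑g⁻¹) q → p = q := by
      intro p q h1 h2
      by_contra hpq
      exact (Finset.mem_filter.1 hg).2 ⟨p, q, hpq, h1, h2⟩
    have n1 : pt c b (c ∘ ⇑g⁻¹) ≠ 0 := by
      intro h0
      apply hne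
      rw [h0]
      simp
    have n2 : pt a c (a ∘ ⇑g⁻¹) ≠ 0 := by
      intro h0
      apply hne
      rw [h0]
      simp
    have e1 : a ∘ ⇑g⁻¹ = a := h.unique hg' (fun p => by
      have := hac.lt_of_pt_ne_zero n2 p
      rw [h.swap13.cnt_eq] at this
      omega) (fun p q h1 h2 => hac.inj_of_pt_ne_zero n2 h1 h2)
    have e1' : ∀ p, a (g⁻¹ p) = a p := congrFun e1
    have e2 : c ∘ ⇑g⁻¹ = c := h.swap13.unique (fun p q h1 h2 => hcb.inj_of_pt_ne_zero n1 h1 h2)
      (fun p => by
        have := h.sum (g⁻¹ p)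
        have := e1' p
        simp only [Function.comp_apply]
        omega)
      (fun p q h1 h2 => g⁻¹.injective (h.swap23.inj _ _ (by rw [e1', e1', h1]) h2))
    rw [← inv_eq_one]
    ext p
    exact h.swap23.inj _ _ (e1' p) (congrFun e2 p)
  · intro h1
    exfalso
    apply h1
    simp only [Finset.mem_filter, Finset.mem_univ, true_and]
    rintro ⟨p, q, h2, h3, h4⟩
    exact h2 (h.inj p q (by simpa using h4) h3)
  · intro g hg
    obtain ⟨p, q, h1, h2, h3, h4⟩ := hσ _ (Finset.mem_filter.1 hg).2
    rw [h4, hmul, hmul, hswap _ p q h3, pt_swap c b _ h1 h2]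
    have h5 : f0 ∘ ⇑(swap p q * g) = (f0 ∘ g) ∘ ⇑(g⁻¹ * swap p q * g) := by
      funext x
      simp
    rw [h5, hinv (g⁻¹ * swap p q * g)]
    · push_cast
      ring
    · intro x
      have := congrFun (hswap _ p q h3) (g x)
      simpa using this
  · intro g hg _
    obtain ⟨p, q, h1, h2, h3, h4⟩ := hσ _ (Finset.mem_filter.1 hg).2
    rw [h4]
    simpa using h1
  · intro g hg
    obtain ⟨p, q, h1, h2, h3, h4⟩ := hσ _ (Finset.mem_filter.1 hg).2
    rw [Finset.mem_filter, h4, hmul, hswap _ p q h3]
    exact ⟨Finset.mem_univ _, p, q, h1, h2, h3⟩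
  · intro g hg
    obtain ⟨p, q, h1, h2, h3, h4⟩ := hσ _ (Finset.mem_filter.1 hg).2
    rw [h4, hmul, hswap _ p q h3, h4]
    simp [← mul_assoc]

theorem Good.exists_sorted {row col : P → ℕ} (hG : Good row col) :
    ∃ col' : P → ℕ, (∀ p q, col' p = col' q ↔ col p = col q) ∧ ∀ p, col' p < cnt row (row p) := by
  let S : P → Finset P := fun p => univ.filter fun q => row q = 0 ∧
    (cnt col (col p) < cnt col (col q) ∨ (cnt col (col p) = cnt col (col q) ∧ col q < col p))
  have htop : ∀ p, ∃ q, col q = col p ∧ row q = 0 :=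
    fun p => hG.surj p (lt_of_le_of_lt (Nat.zero_le _) (hG.lt p))
  have hlt : ∀ p q, (cnt col (col q) < cnt col (col p) ∨
      (cnt col (col q) = cnt col (col p) ∧ col p < col q)) → (S p).card < (S q).card := by
    intro p q hpq
    obtain ⟨t, h1, h2⟩ := htop p
    apply Finset.card_lt_card
    rw [Finset.ssubset_iff_of_subset]
    · refine ⟨t, ?_, ?_⟩
      · simp only [S, Finset.mem_filter, Finset.mem_univ, true_and, h1, h2]
        exact hpq
      · simp [S, h1]
    · intro x
      simp only [S, Finset.mem_filter, Finset.mem_univ, true_and]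
      omega
  refine ⟨fun p => (S p).card, fun p q => ⟨fun h => ?_, fun h => by simp [S, h]⟩, fun p => ?_⟩
  · by_contra hne
    have a1 := hlt p q
    have a2 := hlt q p
    dsimp only at h
    omega
  · obtain ⟨t, h1, h2⟩ := htop p
    have ht : t ∉ S p := by simp [S, h1]
    rw [← Nat.add_one_le_iff, ← Finset.card_insert_of_notMem ht]
    have h3 : ∀ q, ∃ u, q ∈ insert t (S p) → col u = col q ∧ row u = row p := by
      intro q
      by_cases hq : q ∈ insert t (S p)
      · have := hG.lt p
        obtain ⟨u, hu⟩ := hG.surj q (i := row p) (by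
          rcases Finset.mem_insert.1 hq with rfl | hq'
          · rwa [h1]
          · simp only [S, Finset.mem_filter, Finset.mem_univ, true_and] at hq'
            omega)
        exact ⟨u, fun _ => hu⟩
      · exact ⟨q, fun h => absurd h hq⟩
    choose u hu using h3
    have h4 : ∀ q ∈ insert t (S p), row q = 0 := by
      intro q hq
      rcases Finset.mem_insert.1 hq with rfl | hq'
      · exact h2
      · simp only [S, Finset.mem_filter, Finset.mem_univ, true_and] at hq'
        exact hq'.1
    refine Finset.card_le_card_of_injOn u ?_ ?_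
    · intro q hq
      simpa using (hu q hq).2
    · intro x hx y hy hxy
      exact hG.inj x y (by rw [← (hu x hx).1, ← (hu y hy).1, hxy]) ((h4 x hx).trans (h4 y hy).symm)

end

end Vale.Agent.P197
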