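import Vale.Agent.P197.Defs
import Vale.Agent.P197.Main
import Vale.Agent.P197.Parity

namespace Vale.Agent.P197

open Equiv Finset

theorem wordRep_apply {n : ℕ} (g : Perm (Fin n)) (x : (Fin n → ℕ) →₀ ℂ) (f : Fin n → ℕ) :
    wordRep n g x f = x (f ∘ g) := by
  have hinj : Function.Injective fun f : Fin n → ℕ => f ∘ ⇑g⁻¹ := by
    intro f1 f2 h
    funext p
    simpa using congrFun h (g p)
  have := Finsupp.mapDomain_apply hinj x (f ∘ g)
  simp only [wordRep, MonoidHom.coe_mk, OneHom.coe_mk, Finsupp.lmapDomain_apply]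
  convert this using 2
  funext p
  simp

theorem polytabloid_apply {n : ℕ} {lam : YoungDiagram} (T : Fin n ≃ lam.cells) (f : Fin n → ℕ) :
    polytabloid T f = (pt (tabloid T) (fun i => (T i).1.2) f : ℂ) := by
  have hc : columnStabiliser T = colGrp (fun i => (T i).1.2) := by
    ext σ
    simp [columnStabiliser, mem_colGrp]
  unfold polytabloid pt
  rw [Finsupp.finsetSum_apply, hc, Int.cast_sum]
  refine Finset.sum_bij' (fun σ _ => σ⁻¹) (fun σ _ => σ⁻¹) ?_ ?_ ?_ ?_ ?_
  · intro σ hσ
    exact inv_mem_colGrp hσ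
  · intro σ hσ
    exact inv_mem_colGrp hσ
  · simp
  · simp
  · intro σ _
    have : (tabloid T = f ∘ σ) ↔ (f = tabloid T ∘ ⇑σ⁻¹) := by
      constructor
      · intro h
        rw [h]
        funext p
        simp
      · intro h
        rw [h]
        funext p
        simp
    rw [Finsupp.smul_apply, wordRep_apply, Finsupp.single_apply, Perm.sign_inv]
    simp only [this]
    split_ifs <;> simp

theorem exists_tableau {n : ℕ} (lam : YoungDiagram) {row col : Fin n → ℕ} (hG : Good row col)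
    (h : cnt row = lam.rowLen) :
    ∃ T : Fin n ≃ lam.cells, ∀ f, polytabloid T f = (pt row col f : ℂ) := by
  obtain ⟨col', h1, h2⟩ := hG.exists_sorted
  have hG' : Good col' row := ⟨fun p q a b => hG.inj p q ((h1 p q).1 b) a, h2⟩
  let φ : Fin n → lam.cells := fun p => ⟨(row p, col' p), by
    rw [YoungDiagram.mem_cells, YoungDiagram.mem_iff_lt_rowLen, ← h]
    exact h2 p⟩
  have hφ : Function.Bijective φ := by
    constructor
    · intro p q hpq
      simp only [φ, Subtype.mk.injEq, Prod.mk.injEq] at hpq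
      exact hG'.inj p q hpq.1 hpq.2
    · rintro ⟨⟨i, j⟩, hij⟩
      rw [YoungDiagram.mem_cells, YoungDiagram.mem_iff_lt_rowLen, ← h] at hij
      obtain ⟨p, hp⟩ : (univ.filter fun p => row p = i).Nonempty :=
        Finset.card_pos.1 (lt_of_le_of_lt (Nat.zero_le _) hij)
      have hp' : row p = i := by simpa using hp
      obtain ⟨q, a, b⟩ := hG'.surj p (i := j) (by rwa [hp'])
      exact ⟨q, by simp [φ, a, b, hp']⟩
  refine ⟨Equiv.ofBijective φ hφ, fun f => ?_⟩
  rw [polytabloid_apply]
  have e1 : tabloid (Equiv.ofBijective φ hφ) = row := rfl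
  have e2 : colGrp (fun i => ((Equiv.ofBijective φ hφ) i).1.2) = colGrp col := by
    ext σ
    simp only [mem_colGrp]
    exact forall_congr' fun p => h1 _ _
  unfold pt
  rw [e1, e2]

theorem exists_specht_of_Sp {n : ℕ} (lam : YoungDiagram) {x : (Fin n → ℕ) → ℂ}
    (hx : x ∈ Sp (Fin n) lam.rowLen) : ∃ W : spechtSpace n lam, ∀ f, W.1 f = x f := by
  induction hx using Submodule.span_induction with
  | mem x hx =>
    obtain ⟨row, col, hG, h, rfl⟩ := hx
    obtain ⟨T, hT⟩ := exists_tableau lam hG h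
    exact ⟨⟨polytabloid T, Submodule.subset_span ⟨T, rfl⟩⟩, hT⟩
  | zero => exact ⟨0, fun _ => rfl⟩
  | add x y _ _ hx hy =>
    obtain ⟨W1, h1⟩ := hx
    obtain ⟨W2, h2⟩ := hy
    exact ⟨W1 + W2, fun f => by simp [h1, h2]⟩
  | smul a x _ hx =>
    obtain ⟨W1, h1⟩ := hx
    exact ⟨a • W1, fun f => by simp [h1]⟩

theorem finite_spechtSpace (n : ℕ) (lam : YoungDiagram) : Module.Finite ℂ (spechtSpace n lam) :=
  FiniteDimensional.span_of_finite ℂ (Set.finite_range _)

theorem finrank_intertwining_comm {G V W : Type} [Group G] [Fintype G] [AddCommGroup V]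
    [Module ℂ V] [FiniteDimensional ℂ V] [AddCommGroup W] [Module ℂ W] [FiniteDimensional ℂ W]
    (ρ : Representation ℂ G V) (σ : Representation ℂ G W) :
    Module.finrank ℂ (ρ.IntertwiningMap σ) = Module.finrank ℂ (σ.IntertwiningMap ρ) := by
  have : Invertible (Nat.card G : ℂ) := invertibleOfNonzero (by exact_mod_cast Nat.card_pos.ne')
  have h1 := Representation.card_inv_mul_sum_char_mul_char_eq_finrank ρ σ
  have h2 := Representation.card_inv_mul_sum_char_mul_char_eq_finrank σ ρ
  have h3 : ∑ g : G, σ.character g * ρ.character g⁻¹ = ∑ g : G, ρ.character g * σ.character g⁻¹ :=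
    Fintype.sum_equiv (Equiv.inv G) _ _ fun g => by simp [mul_comm]
  rw [h3, h2] at h1
  exact_mod_cast h1.symm

theorem specht_apply {n : ℕ} {lam : YoungDiagram} (g : Perm (Fin n)) (x : spechtSpace n lam)
    (f : Fin n → ℕ) : (specht n lam g x).1 f = x.1 (f ∘ g) :=
  wordRep_apply g x.1 f

theorem finrank_pos_of_ne_zero {G V1 V2 W : Type} [Group G] [Fintype G] [AddCommGroup V1]
    [Module ℂ V1] [FiniteDimensional ℂ V1] [AddCommGroup V2] [Module ℂ V2]
    [FiniteDimensional ℂ V2] [AddCommGroup W] [Module ℂ W] [FiniteDimensional ℂ W]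
    (ρ1 : Representation ℂ G V1) (ρ2 : Representation ℂ G V2) (σ : Representation ℂ G W)
    (Ψ : TensorProduct ℂ V1 V2 →ₗ[ℂ] W)
    (h1 : ∀ g x y, Ψ (ρ1 g x ⊗ₜ ρ2 g y) = σ g (Ψ (x ⊗ₜ y))) (h2 : Ψ ≠ 0) :
    0 < Module.finrank ℂ (σ.IntertwiningMap (ρ1.tprod ρ2)) := by
  rw [← finrank_intertwining_comm (ρ1.tprod ρ2) σ, Module.finrank_pos_iff_exists_ne_zero]
  refine ⟨⟨Ψ, fun k => ?_⟩, fun h0 => h2 (congrArg (fun φ => φ.toLinearMap) h0)⟩
  apply TensorProduct.ext'
  intro x y
  simp only [LinearMap.comp_apply, Representation.tprod_apply, TensorProduct.map_tmul, h1]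

theorem kronecker_pos {n : ℕ} {lam mu nu : YoungDiagram} (t1 t0 f0 : Fin n → ℕ)
    (x : spechtSpace n lam) (y : spechtSpace n mu) (W : spechtSpace n nu)
    (h : ∑ g : Perm (Fin n), x.1 (t1 ∘ ⇑g⁻¹) * y.1 (t0 ∘ ⇑g⁻¹) * W.1 (f0 ∘ g) ≠ 0) :
    0 < kronecker n lam mu nu := by
  have := finite_spechtSpace n lam
  have := finite_spechtSpace n mu
  have := finite_spechtSpace n nu
  unfold kronecker
  let Ψ : TensorProduct ℂ (spechtSpace n lam) (spechtSpace n mu) →ₗ[ℂ] spechtSpace n nu :=
    TensorProduct.lift (LinearMap.mk₂ ℂ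
      (fun x y => ∑ g : Perm (Fin n), (x.1 (t1 ∘ ⇑g⁻¹) * y.1 (t0 ∘ ⇑g⁻¹)) • specht n nu g W)
      (fun a b c => by simp [add_mul, add_smul, Finset.sum_add_distrib])
      (fun a b c => by simp [Finset.smul_sum, smul_smul, mul_assoc])
      (fun a b c => by simp [mul_add, add_smul, Finset.sum_add_distrib])
      (fun a b c => by simp [Finset.smul_sum, smul_smul, mul_left_comm]))
  have hΨ : ∀ x y, Ψ (x ⊗ₜ y) =
      ∑ g : Perm (Fin n), (x.1 (t1 ∘ ⇑g⁻¹) * y.1 (t0 ∘ ⇑g⁻¹)) • specht n nu g W := fun _ _ => rfl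
  refine finrank_pos_of_ne_zero (V1 := spechtSpace n lam) (V2 := spechtSpace n mu)
    (W := spechtSpace n nu) (specht n lam) (specht n mu) (specht n nu) Ψ ?_ fun h0 => h ?_
  · intro k x y
    simp only [hΨ, map_sum, map_smul, specht_apply]
    symm
    refine Fintype.sum_equiv (Equiv.mulLeft k) _ _ fun g => ?_
    have e : ∀ t : Fin n → ℕ, (t ∘ ⇑(k * g)⁻¹) ∘ k = t ∘ ⇑g⁻¹ := by
      intro t
      funext p
      simp
    simp only [Equiv.coe_mulLeft, e, map_mul, Module.End.mul_apply]
  · have h1 : Ψ (x ⊗ₜ y) = 0 := by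
      rw [h0]
      rfl
    rw [hΨ] at h1
    have h2 := congrArg (fun z : spechtSpace n nu => z.1 f0) h1
    simpa only [Submodule.coe_sum, Finsupp.finsetSum_apply, Submodule.coe_smul,
      Finsupp.smul_apply, specht_apply, smul_eq_mul, ZeroMemClass.coe_zero, Finsupp.coe_zero,
      Pi.zero_apply] using h2

theorem rowLen_staircase (m i : ℕ) : (staircase m).rowLen i = m - i := by
  apply eq_of_forall_lt_iff
  intro j
  rw [← YoungDiagram.mem_iff_lt_rowLen, ← YoungDiagram.mem_cells]
  simp only [staircase, Finset.mem_filter, Finset.mem_product, Finset.mem_range]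
  omega

theorem sum_rowLen (nu : YoungDiagram) : ∑ i ∈ range (nu.colLen 0), nu.rowLen i = nu.card := by
  unfold YoungDiagram.card
  rw [Finset.card_eq_sum_card_fiberwise (f := Prod.fst) (t := range (nu.colLen 0))]
  · exact Finset.sum_congr rfl fun i _ => nu.rowLen_eq_card
  · rintro ⟨i, j⟩ h
    simp only [Finset.coe_range, Set.mem_Iio]
    rw [← YoungDiagram.mem_iff_lt_colLen]
    exact nu.up_left_mem le_rfl (Nat.zero_le j) h

theorem saxl (m : ℕ) (nu : YoungDiagram) (h : nu.card = tri m + 0) :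
    0 < kronecker (tri m + 0) (staircase m) (staircase m) nu := by
  obtain ⟨w, ⟨wz, hw1, hw2⟩, hinv, f0, hf0, -⟩ := (main_fix (nu.colLen 0) _ m 0 nu.rowLen rfl
    (Nat.zero_le _) (fun i j hij => nu.rowLen_anti i j hij) (by
      by_contra hne
      have := YoungDiagram.mem_iff_lt_rowLen.2 (Nat.pos_of_ne_zero hne)
      rw [YoungDiagram.mem_iff_lt_colLen] at this
      omega) (by rw [sum_rowLen, h])).1
  have hlev : ∀ p : Fin (tri m + 0), lev p < m := by
    intro p
    have := p.2
    rw [← not_le, le_lev_iff]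
    omega
  let a : Fin (tri m + 0) → ℕ := fun p => m - 1 - lev p
  let b : Fin (tri m + 0) → ℕ := fun p => p - tri (lev p)
  let c : Fin (tri m + 0) → ℕ := fun p => lev p - (p - tri (lev p))
  have hT : Tri m a b c := by
    constructor
    · intro p
      have a1 := hlev p
      have a2 := lt_tri_lev_succ p
      rw [tri_succ] at a2
      simp only [a, b, c]
      omega
    · intro p q h1 h2
      have a1 := hlev p
      have a2 := hlev q
      have a3 := tri_lev_le p
      have a4 := tri_lev_le q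
      simp only [a, b] at h1 h2
      have a5 : lev p = lev q := by omega
      rw [a5] at h2 a3
      exact Fin.ext (by omega)
    · intro i j hij
      have a1 := tri_succ (m - 1 - i)
      have a2 := tri_mono (show m - 1 - i + 1 ≤ m by omega)
      have a3 : lev (tri (m - 1 - i) + j) = m - 1 - i := lev_eq_iff.2 ⟨by omega, by omega⟩
      refine ⟨⟨tri (m - 1 - i) + j, by omega⟩, ?_, ?_⟩
      · simp only [a, a3]
        omega
      · simp only [b, a3]
        omega
  have hP := parity_sum hT w (fun g hg => hinv g fun p => by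
    have a1 := hg p
    have a2 := hlev p
    have a3 := hlev (g p)
    simp only [a] at a1 ⊢
    omega) f0
  obtain ⟨W, hW⟩ := exists_specht_of_Sp nu hw1
  obtain ⟨x, hx⟩ := exists_specht_of_Sp (staircase m) (x := fun f => (pt c b f : ℂ)) (by
    have := pt_mem_Sp hT.swap13.good
    rwa [show cnt c = (staircase m).rowLen from
      funext fun i => by rw [hT.swap13.cnt_eq, rowLen_staircase]] at this)
  obtain ⟨y, hy⟩ := exists_specht_of_Sp (staircase m) (x := fun f => (pt a c f : ℂ)) (by
    have := pt_mem_Sp hT.swap23.good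
    rwa [show cnt a = (staircase m).rowLen from
      funext fun i => by rw [hT.cnt_eq, rowLen_staircase]] at this)
  refine kronecker_pos c a f0 x y W ?_
  intro h0
  simp only [hx, hy, hW] at h0
  have h1 : ∑ g : Perm (Fin (tri m + 0)),
      pt c b (c ∘ ⇑g⁻¹) * pt a c (a ∘ ⇑g⁻¹) * wz (f0 ∘ g) = 0 := by exact_mod_cast h0
  apply hf0
  rw [← hP]
  simp only [← hw2]
  exact_mod_cast congrArg (fun z : ℤ => (z : ZMod 2)) h1

end Vale.Agent.P197
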