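import Mathlib

namespace Vale.Agent.P197

open Equiv

/-- The permutation representation of `S_n` on the free complex vector space on words
`Fin n → ℕ`; a tabloid is the word sending each entry to the index of its row. -/
noncomputable def wordRep (n : ℕ) : Representation ℂ (Perm (Fin n)) ((Fin n → ℕ) →₀ ℂ) where
  toFun g := Finsupp.lmapDomain ℂ ℂ (fun f => f ∘ ⇑g⁻¹)
  map_one' := by
    ext f
    simp
  map_mul' g h := by
    ext f
    simp [Function.comp_assoc]

/-- The tabloid of a tableau `T` (a bijective filling of the diagram by `Fin n`). -/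
def tabloid {n : ℕ} {lam : YoungDiagram} (T : Fin n ≃ lam.cells) : Fin n → ℕ :=
  fun i => (T i).1.1

/-- The column stabiliser of a tableau. -/
def columnStabiliser {n : ℕ} {lam : YoungDiagram} (T : Fin n ≃ lam.cells) :
    Finset (Perm (Fin n)) :=
  Finset.univ.filter fun σ => ∀ i, (T (σ i)).1.2 = (T i).1.2

/-- The polytabloid of a tableau. -/
noncomputable def polytabloid {n : ℕ} {lam : YoungDiagram} (T : Fin n ≃ lam.cells) :
    (Fin n → ℕ) →₀ ℂ :=
  ∑ σ ∈ columnStabiliser T, ((Perm.sign σ : ℤ) : ℂ) • wordRep n σ (Finsupp.single (tabloid T) 1)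

/-- The span of the polytabloids of shape `lam`. -/
noncomputable def spechtSpace (n : ℕ) (lam : YoungDiagram) : Submodule ℂ ((Fin n → ℕ) →₀ ℂ) :=
  Submodule.span ℂ (Set.range fun T : Fin n ≃ lam.cells => polytabloid T)

theorem wordRep_polytabloid {n : ℕ} {lam : YoungDiagram} (g : Perm (Fin n))
    (T : Fin n ≃ lam.cells) :
    wordRep n g (polytabloid T) = polytabloid ((g⁻¹ : Perm (Fin n)).trans T) := by
  unfold polytabloid
  rw [map_sum]
  refine Finset.sum_bij' (fun σ _ => g * σ * g⁻¹) (fun σ _ => g⁻¹ * σ * g) ?_ ?_ ?_ ?_ ?_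
  · intro σ hσ
    simp only [columnStabiliser, Finset.mem_filter, Finset.mem_univ, true_and] at hσ ⊢
    intro i
    simpa using hσ (g⁻¹ i)
  · intro σ hσ
    simp only [columnStabiliser, Finset.mem_filter, Finset.mem_univ, true_and] at hσ ⊢
    intro i
    simpa using hσ (g i)
  · intro σ _
    group
  · intro σ _
    group
  · intro σ _
    have h1 : Finsupp.single (tabloid ((g⁻¹ : Perm (Fin n)).trans T)) (1 : ℂ) =
        wordRep n g (Finsupp.single (tabloid T) 1) := by
      simp only [wordRep, MonoidHom.coe_mk, OneHom.coe_mk, Finsupp.lmapDomain_apply,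
        Finsupp.mapDomain_single]
      rfl
    have h2 : Perm.sign (g * σ * g⁻¹) = Perm.sign σ := by
      rw [Perm.sign_mul, Perm.sign_mul, Perm.sign_inv, mul_right_comm, Int.units_mul_self, one_mul]
    rw [map_smul, h1, h2, ← Module.End.mul_apply, ← Module.End.mul_apply, ← map_mul, ← map_mul]
    simp

theorem spechtSpace_le_comap (n : ℕ) (lam : YoungDiagram) (g : Perm (Fin n)) :
    spechtSpace n lam ≤ (spechtSpace n lam).comap (wordRep n g) := by
  unfold spechtSpace
  rw [Submodule.span_le]
  rintro _ ⟨T, rfl⟩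
  simp only [SetLike.mem_coe, Submodule.mem_comap, wordRep_polytabloid]
  exact Submodule.subset_span ⟨_, rfl⟩

/-- The Specht module `S^lam` as a complex representation of `S_n`. -/
noncomputable def specht (n : ℕ) (lam : YoungDiagram) :
    Representation ℂ (Perm (Fin n)) (spechtSpace n lam) :=
  (wordRep n).subrepresentation (spechtSpace n lam) (spechtSpace_le_comap n lam)

/-- The Kronecker coefficient `g(lam, mu, nu) = dim Hom_{S_n}(S^nu, S^lam ⊗ S^mu)`. -/
noncomputable def kronecker (n : ℕ) (lam mu nu : YoungDiagram) : ℕ :=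
  Module.finrank ℂ ((specht n nu).IntertwiningMap ((specht n lam).tprod (specht n mu)))

/-- The staircase diagram with rows `m, m - 1, ..., 1`. -/
def staircase (m : ℕ) : YoungDiagram where
  cells := (Finset.range m ×ˢ Finset.range m).filter fun c => c.1 + c.2 < m
  isLowerSet := by
    rintro ⟨a, b⟩ ⟨c, d⟩ ⟨h1, h2⟩ h
    simp only [Finset.coe_filter, Finset.mem_product, Finset.mem_range, Set.mem_ofPred_eq] at h ⊢
    dsimp only at h1 h2
    omega

end Vale.Agent.P197
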