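import Vale.Agent.P197.Basic

namespace Vale.Agent.P197

open Equiv Finset

set_option linter.unusedSectionVars false

section

variable {P : Type} [Fintype P] [DecidableEq P]

theorem Good.surj {row col : P → ℕ} (hG : Good row col) (p : P) {i : ℕ}
    (hi : i < cnt col (col p)) : ∃ q, col q = col p ∧ row q = i := by
  have h1 : (univ.filter fun q => col q = col p).image row ⊆ range (cnt col (col p)) := by
    intro x hx
    obtain ⟨q, hq, rfl⟩ := Finset.mem_image.1 hx
    simp only [Finset.mem_filter, Finset.mem_univ, true_and] at hq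
    rw [Finset.mem_range, ← hq]
    exact hG.lt q
  have h2 : ((univ.filter fun q => col q = col p).image row).card = cnt col (col p) := by
    rw [Finset.card_image_of_injOn]
    · rfl
    · intro a ha b hb hab
      simp only [Finset.coe_filter, Finset.mem_univ, true_and, Set.mem_ofPred_eq] at ha hb
      exact hG.inj a b (ha.trans hb.symm) hab
  have h3 := Finset.eq_of_subset_of_card_le h1 (by rw [h2, Finset.card_range])
  have h4 : i ∈ (univ.filter fun q => col q = col p).image row := by
    rw [h3]
    exact Finset.mem_range.2 hi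
  obtain ⟨q, hq, rfl⟩ := Finset.mem_image.1 h4
  exact ⟨q, by simpa using hq, rfl⟩

/-- the words occurring in a Garnir relation -/
def gw (f : P → ℕ) (j : ℕ) (Z Y : Finset P) (p : P) : ℕ :=
  if p ∈ Y then j + 1 else if p ∈ Z then j else f p

theorem garnir_pt {row col : P → ℕ} (hG : Good row col) (f : P → ℕ) (j : ℕ) (Z : Finset P)
    (hZ : cnt row j < Z.card) (i : ℕ) :
    ∑ Y ∈ Z.powersetCard i, pt row col (gw f j Z Y) = 0 := by
  by_cases hA : ∃ p ∈ Z, cnt col (col p) ≤ j
  · obtain ⟨p, hp, hle⟩ := hA
    refine Finset.sum_eq_zero fun Y _ => ?_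
    by_contra hne
    have := hG.lt_of_pt_ne_zero hne p
    unfold gw at this
    split_ifs at this <;> omega
  · push Not at hA
    have hq : ∀ p : P, ∃ q, p ∈ Z → col q = col p ∧ row q = j := by
      intro p
      by_cases hp : p ∈ Z
      · obtain ⟨q, h1, h2⟩ := hG.surj p (hA p hp)
        exact ⟨q, fun _ => ⟨h1, h2⟩⟩
      · exact ⟨p, fun h => absurd h hp⟩
    choose q hq using hq
    obtain ⟨a, ha, b, hb, hab, hqab⟩ := Finset.exists_ne_map_eq_of_card_lt_of_maps_to
      (t := univ.filter fun p => row p = j) hZ (f := q)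
      (fun p hp => by simpa using (hq p hp).2)
    have hc : col a = col b := by rw [← (hq a ha).1, ← (hq b hb).1, hqab]
    have hZs : ∀ p, swap a b p ∈ Z ↔ p ∈ Z := by
      intro p
      rw [swap_apply_def]
      split_ifs with h1 h2 <;> simp_all
    have hgw : ∀ Y : Finset P, gw f j Z (Y.map (swap a b).toEmbedding) = gw f j Z Y ∘ swap a b := by
      intro Y
      ext p
      simp only [gw, Finset.mem_map_equiv, symm_swap, Function.comp_apply, hZs]
      split_ifs with h1 h2
      · rfl
      · rfl
      · rw [swap_apply_of_ne_of_ne]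
        · rintro rfl
          exact h2 ha
        · rintro rfl
          exact h2 hb
    refine Finset.sum_involution (fun Y _ => Y.map (swap a b).toEmbedding) ?_ ?_ ?_ ?_
    · intro Y _
      rw [hgw, pt_swap row col _ hab hc]
      simp
    · intro Y _ hne h
      have h1 := congrFun (hgw Y) a
      rw [h] at h1
      simp only [Function.comp_apply, swap_apply_left] at h1
      exact hab (hG.inj_of_pt_ne_zero hne hc h1)
    · intro Y hY
      rw [Finset.mem_powersetCard] at hY ⊢
      refine ⟨?_, by simpa using hY.2⟩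
      intro p hp
      rw [Finset.mem_map_equiv, symm_swap] at hp
      exact (hZs p).1 (hY.1 hp)
    · intro Y _
      ext p
      simp

theorem garnir_Sp {ν : ℕ → ℕ} {x : (P → ℕ) → ℂ} (hx : x ∈ Sp P ν) (f : P → ℕ) (j : ℕ)
    (Z : Finset P) (hZ : ν j < Z.card) (i : ℕ) :
    ∑ Y ∈ Z.powersetCard i, x (gw f j Z Y) = 0 := by
  induction hx using Submodule.span_induction with
  | mem x hx =>
    obtain ⟨row, col, hG, rfl, rfl⟩ := hx
    have := garnir_pt hG f j Z hZ i
    dsimp only
    exact_mod_cast this
  | zero => simp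
  | add x y _ _ hx hy => simp [Finset.sum_add_distrib, hx, hy]
  | smul a x _ hx => simp [← Finset.mul_sum, hx]

theorem garnir_Lb {ν : ℕ → ℕ} {x : (P → ℕ) → ZMod 2} (hx : x ∈ Lb P ν) (f : P → ℕ) (j : ℕ)
    (Z : Finset P) (hZ : ν j < Z.card) (i : ℕ) :
    ∑ Y ∈ Z.powersetCard i, x (gw f j Z Y) = 0 := by
  obtain ⟨w, h1, h2⟩ := hx
  have h3 := garnir_Sp h1 f j Z hZ i
  have h4 : ∑ Y ∈ Z.powersetCard i, w (gw f j Z Y) = 0 := by exact_mod_cast h3
  simp only [← h2]
  exact_mod_cast congrArg (fun z : ℤ => (z : ZMod 2)) h4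

/-- any nonzero vector has a support word packing a given set of positions in the top rows -/
theorem exists_top_packed {ν : ℕ → ℕ} {x : (P → ℕ) → ZMod 2} (hx : x ∈ Lb P ν) {f : P → ℕ}
    (hf : x f ≠ 0) (A : Finset P) : ∃ f', x f' ≠ 0 ∧ ∀ p ∈ A, f' p < A.card := by
  classical
  have hex : ∃ k, ∃ f', x f' ≠ 0 ∧ ∑ p ∈ A, f' p = k := ⟨_, f, hf, rfl⟩
  obtain ⟨g, hg, hgk⟩ := Nat.find_spec hex
  have hmin : ∀ f', x f' ≠ 0 → ∑ p ∈ A, g p ≤ ∑ p ∈ A, f' p := fun f' h' => by
    rw [hgk]
    exact Nat.find_min' hex ⟨f', h', rfl⟩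
  have hstep : ∀ d, (∃ p ∈ A, g p = d + 1) → ∃ q ∈ A, g q = d := by
    rintro d ⟨p, hp, hpd⟩
    by_contra hno
    push Not at hno
    let Z : Finset P := insert p (univ.filter fun q => g q = d)
    have hpZ : p ∉ univ.filter fun q => g q = d := by simp [hpd]
    have hZ : ν d < Z.card := by
      rw [Finset.card_insert_of_notMem hpZ, ← cnt_eq_of_Lb hx hg]
      exact Nat.lt_succ_self _
    have h1 := garnir_Lb hx g d Z hZ 1
    rw [Finset.powersetCard_one, Finset.sum_map, Finset.sum_insert hpZ] at h1
    have h2 : gw g d Z {p} = g := by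
      ext q
      simp only [gw, Finset.mem_singleton, Z, Finset.mem_insert, Finset.mem_filter,
        Finset.mem_univ, true_and]
      split_ifs with h1 h2
      · rw [h1, hpd]
      · rcases h2 with h2 | h2
        · exact absurd h2 h1
        · exact h2.symm
      · rfl
    have h3 : ∑ q ∈ univ.filter (fun q => g q = d), x (gw g d Z {q}) = 0 := by
      refine Finset.sum_eq_zero fun q hq => ?_
      by_contra hne
      have hqd : g q = d := by simpa using hq
      have hqA : q ∉ A := fun h => hno q h hqd
      have := hmin _ hne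
      refine absurd this (not_le.2 (Finset.sum_lt_sum ?_ ⟨p, hp, ?_⟩))
      · intro a ha
        have haq : a ≠ q := fun h => hqA (h ▸ ha)
        simp only [gw, Finset.mem_singleton, haq, if_false, Z, Finset.mem_insert,
          Finset.mem_filter, Finset.mem_univ, true_and]
        split_ifs with h1
        · rcases h1 with h1 | h1
          · rw [h1, hpd]
            omega
          · omega
        · rfl
      · have hpq : p ≠ q := fun h => hqA (h ▸ hp)
        simp [gw, hpq, Z, hpd]
    simp only [Function.Embedding.coeFn_mk] at h1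
    rw [h2, h3, add_zero] at h1
    exact hg h1
  refine ⟨g, hg, fun p hp => ?_⟩
  have hall : ∀ k, ∀ d, d + k = g p → ∃ q ∈ A, g q = d := by
    intro k
    induction k with
    | zero => exact fun d hd => ⟨p, hp, by omega⟩
    | succ k ih => exact fun d hd => hstep d (ih (d + 1) (by omega))
  have hsub : range (g p + 1) ⊆ A.image g := by
    intro d hd
    rw [Finset.mem_range] at hd
    obtain ⟨q, hq, h⟩ := hall (g p - d) d (by omega)
    exact Finset.mem_image.2 ⟨q, hq, h⟩
  have := (Finset.card_le_card hsub).trans Finset.card_image_le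
  rw [Finset.card_range] at this
  omega

end

end Vale.Agent.P197
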