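import Vale.Agent.P197.James

namespace Vale.Agent.P197

open Equiv Finset

set_option linter.unusedSectionVars false

section

variable {P Q : Type} [Fintype P] [DecidableEq P] [Fintype Q] [DecidableEq Q]

theorem card_filter_comp_equiv (e : P ≃ Q) (c : Q → Prop) [DecidablePred c] :
    (univ.filter fun p => c (e p)).card = (univ.filter c).card :=
  Finset.card_bij' (fun p _ => e p) (fun q _ => e.symm q) (by simp) (by simp) (by simp) (by simp)

theorem card_filter_inl (c : P ⊕ Q → Prop) [DecidablePred c] (h : ∀ q, ¬ c (Sum.inr q)) :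
    (univ.filter c).card = (univ.filter fun p => c (Sum.inl p)).card := by
  symm
  refine Finset.card_bij (fun p _ => Sum.inl p) (by simp) (by simp) ?_
  rintro (p | q) hp
  · exact ⟨p, by simpa using hp, rfl⟩
  · exact absurd (by simpa using hp) (h q)

open scoped Classical in
theorem glue {l1 : P → ℕ} {l2 : Q → ℕ} {μ lam : ℕ → ℕ} {s r h' h : ℕ} (hsr : s < r)
    (hJ : (fun f : P → ℕ => if cnt f = μ then (1 : ZMod 2) else 0) ∈ Lb P μ)
    (h1 : ∀ p, s ≤ l1 p) (h2 : ∀ q, l2 q ≤ s) (hF : Fix Q l2 lam s h')
    (f1 : P → ℕ) (hf1 : cnt f1 = μ) (ha : ∀ p, l1 p = s → h' ≤ f1 p)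
    (hb : ∀ p, l1 p = r → f1 p < h) :
    Fix (P ⊕ Q) (Sum.elim l1 l2) (μ + lam) r h := by
  obtain ⟨w, hw, hinv, f2, hf2, hf2'⟩ := hF
  have hx := Lb_tensor hJ hw
  obtain ⟨w', hw', hinv', h0⟩ := orbit_sum (Sum.elim l1 l2) hx (Sum.elim f1 f2)
    (by simpa [hf1] using hf2) (by
      intro g hg hne
      have hc : cnt ((Sum.elim f1 f2 ∘ g) ∘ Sum.inl) = cnt f1 := by
        by_contra hcon
        apply hne
        rw [hf1] at hcon
        simp only [hcon, if_false, zero_mul]
      obtain ⟨e, he⟩ := exists_equiv_of_cnt_eq hc
      have e1 : (univ.filter fun p => h' ≤ Sum.elim f1 f2 (g (Sum.inl p))).card =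
          (univ.filter fun p => h' ≤ f1 p).card := by
        rw [← card_filter_comp_equiv e (fun p => h' ≤ f1 p)]
        congr 1
        ext p
        have := congrFun he p
        simp only [Function.comp_apply] at this
        simp [this]
      have e2 : (univ.filter fun p => s < l1 p ∧ h' ≤ Sum.elim f1 f2 (g (Sum.inl p))).card =
          (univ.filter fun p => s < l1 p ∧ h' ≤ f1 p).card := by
        have a1 := card_filter_comp_equiv g
          (fun u => s < Sum.elim l1 l2 u ∧ h' ≤ Sum.elim f1 f2 u)
        rw [card_filter_inl, card_filter_inl] at a1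
        · simp only [hg, Sum.elim_inl] at a1
          refine Eq.trans ?_ (a1.trans ?_) <;> congr 1
        · intro q
          have := h2 q
          simp only [Sum.elim_inr]
          omega
        · intro q
          have := h2 q
          simp only [hg, Sum.elim_inr]
          omega
      have split : ∀ (c : P → Prop) [DecidablePred c], (univ.filter c).card =
          (univ.filter fun p => s < l1 p ∧ c p).card + (univ.filter fun p => l1 p = s ∧ c p).card := by
        intro c _
        rw [← Finset.card_union_of_disjoint]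
        · congr 1
          ext p
          have := h1 p
          simp only [Finset.mem_filter, Finset.mem_univ, true_and, Finset.mem_union]
          rcases this.eq_or_lt with h | h
          · simp [h]
          · simp [h, h.ne']
        · rw [Finset.disjoint_left]
          intro p
          simp only [Finset.mem_filter, Finset.mem_univ, true_and]
          omega
      rw [split, split (fun p => h' ≤ f1 p), e2] at e1
      have e3 : (univ.filter fun p => l1 p = s ∧ h' ≤ Sum.elim f1 f2 (g (Sum.inl p))) =
          (univ.filter fun p => l1 p = s ∧ h' ≤ f1 p) := by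
        apply Finset.eq_of_subset_of_card_le
        · intro p
          simp only [Finset.mem_filter, Finset.mem_univ, true_and]
          exact fun hp => ⟨hp.1, ha p hp.1⟩
        · omega
      obtain ⟨σ1, σ2, rfl⟩ : ∃ (σ1 : Perm P) (σ2 : Perm Q), g = Perm.sumCongr σ1 σ2 := by
        apply exists_sumCongr_of_mapsTo
        intro p
        rcases hs : g (Sum.inl p) with p' | q'
        · exact ⟨p', rfl⟩
        · exfalso
          have a1 := hg (Sum.inl p)
          rw [hs] at a1
          simp only [Sum.elim_inl, Sum.elim_inr] at a1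
          have a2 : l1 p = s := le_antisymm (a1 ▸ h2 q') (h1 p)
          have a3 : p ∈ univ.filter fun p => l1 p = s ∧ h' ≤ f1 p := by simp [a2, ha p a2]
          rw [← e3] at a3
          simp only [Finset.mem_filter, Finset.mem_univ, true_and, hs, Sum.elim_inr] at a3
          have := hf2' q' (a1.trans a2)
          omega
      intro f
      have b1 : (f ∘ ⇑(Perm.sumCongr σ1 σ2)) ∘ Sum.inl = (f ∘ Sum.inl) ∘ σ1 := by
        ext p
        simp
      have b2 : (f ∘ ⇑(Perm.sumCongr σ1 σ2)) ∘ Sum.inr = (f ∘ Sum.inr) ∘ σ2 := by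
        ext p
        simp
      simp only [b1, b2]
      rw [cnt_comp_equiv, hinv σ2 (fun q => by simpa using hg (Sum.inr q))])
  refine ⟨w', hw', hinv', Sum.elim f1 f2, h0, ?_⟩
  rintro (p | q) hp
  · exact hb p hp
  · have := h2 q
    simp only [Sum.elim_inr] at hp
    omega

end

/-- triangular numbers -/
def tri : ℕ → ℕ
  | 0 => 0
  | s + 1 => tri s + s + 1

theorem tri_succ (s : ℕ) : tri (s + 1) = tri s + s + 1 := rfl

theorem two_mul_tri (s : ℕ) : 2 * tri s = s * (s + 1) := by
  induction s with
  | zero => rfl
  | succ s ih =>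
    rw [tri_succ]
    nlinarith

theorem tri_strictMono : StrictMono tri := strictMono_nat_of_lt_succ fun s => by
  rw [tri_succ]
  omega

theorem tri_mono {a b : ℕ} (h : a ≤ b) : tri a ≤ tri b := tri_strictMono.monotone h

/-- the level of a position -/
def lev (p : ℕ) : ℕ := Nat.findGreatest (fun s => tri s ≤ p) p

theorem tri_lev_le (p : ℕ) : tri (lev p) ≤ p :=
  Nat.findGreatest_spec (P := fun s => tri s ≤ p) (Nat.zero_le p) (Nat.zero_le p)

theorem lt_tri_lev_succ (p : ℕ) : p < tri (lev p + 1) := by
  by_contra h
  have h1 : tri (lev p + 1) ≤ p := not_lt.1 h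
  have h2 : lev p + 1 ≤ p := (tri_strictMono.id_le _).trans h1
  have := Nat.le_findGreatest (P := fun s => tri s ≤ p) h2 h1
  unfold lev at this
  omega

theorem le_lev_iff {s p : ℕ} : s ≤ lev p ↔ tri s ≤ p :=
  ⟨fun h => (tri_mono h).trans (tri_lev_le p), fun h => by
    by_contra h'
    have := tri_mono (show lev p + 1 ≤ s by omega)
    have := lt_tri_lev_succ p
    omega⟩

theorem lev_eq_iff {s p : ℕ} : lev p = s ↔ tri s ≤ p ∧ p < tri (s + 1) := by
  rw [← le_lev_iff, ← not_le, ← le_lev_iff]
  omega

/-- the shape with columns `x, y, y` -/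
def piece (x y : ℕ) (i : ℕ) : ℕ := (if i < x then 1 else 0) + 2 * (if i < y then 1 else 0)

theorem piece_anti (x y : ℕ) : Antitone (piece x y) := by
  intro a b h
  unfold piece
  split_ifs <;> omega

theorem piece_even {x y : ℕ} (hyx : y ≤ x) (j i : ℕ) (h1 : 1 ≤ i) (h2 : i ≤ piece x y (j + 1)) :
    Even ((piece x y j + 1).choose i) := by
  unfold piece at *
  split_ifs at * <;> first | omega | (interval_cases i <;> decide)

theorem step {x y r b s b' h h' : ℕ} {lam : ℕ → ℕ} (hyx : y ≤ x) (hsr : s < r)
    (hb' : b' ≤ s + 1) (hn : tri r + b = x + 2 * y + (tri s + b'))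
    (hF : Fix (Fin (tri s + b')) (fun p => lev p) lam s h')
    (ha : s + 1 - b' ≤ (x - h') + 2 * (y - h')) (hh : b ≤ min h x + 2 * min h y) :
    Fix (Fin (tri r + b)) (fun p => lev p) (piece x y + lam) r h := by
  let f1 : Fin (x + 2 * y) → ℕ := fun p => if (p : ℕ) < 3 * y then p / 3 else p - 2 * y
  let l1 : Fin (x + 2 * y) → ℕ := fun p => lev (tri r + b - 1 - p)
  have hf1 : cnt f1 = piece x y := by
    funext i
    unfold cnt piece
    rw [← Finset.card_map Fin.valEmbedding]
    have : (univ.filter fun p => f1 p = i).map Fin.valEmbedding =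
        if i < y then Ico (3 * i) (3 * i + 3) else if i < x then {i + 2 * y} else ∅ := by
      ext a
      simp only [Finset.mem_map, Finset.mem_filter, Finset.mem_univ, true_and,
        Fin.valEmbedding_apply, f1]
      constructor
      · rintro ⟨p, hp, rfl⟩
        have := p.2
        split_ifs at hp ⊢ <;> simp <;> omega
      · intro ha
        refine ⟨⟨a, ?_⟩, ?_, rfl⟩
        · split_ifs at ha <;> simp at ha <;> omega
        · dsimp only
          split_ifs at ha ⊢ <;> simp at ha <;> omega
    rw [this]
    split_ifs <;> simp <;> omega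
  have hG := glue (l1 := l1) hsr (james (piece_anti x y) (piece_even hyx)) (h := h)
    (fun p => by
      have := p.2
      simp only [l1, le_lev_iff]
      omega)
    (fun q => by
      have := q.2
      have h1 := tri_succ s
      rw [← Nat.lt_add_one_iff, ← not_le, le_lev_iff]
      omega) hF f1 hf1
    (fun p hp => by
      have := p.2
      have h1 := tri_succ s
      simp only [l1, lev_eq_iff] at hp
      simp only [f1]
      split_ifs <;> omega)
    (fun p hp => by
      have := p.2
      simp only [l1, lev_eq_iff] at hp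
      simp only [f1]
      split_ifs <;> omega)
  let e : Fin (tri r + b) ≃ Fin (x + 2 * y) ⊕ Fin (tri s + b') :=
    Fin.revPerm.trans ((finCongr hn).trans
      (finSumFinEquiv.symm.trans (Equiv.sumCongr (Equiv.refl _) Fin.revPerm)))
  convert hG.transport e using 1
  funext p
  have hp := p.2
  obtain ⟨u, hu⟩ : ∃ u, u = finSumFinEquiv.symm ((finCongr hn) (Fin.rev p)) := ⟨_, rfl⟩
  have hu' : ((finSumFinEquiv u : Fin _) : ℕ) = tri r + b - (p + 1) := by
    rw [hu]
    simp [Fin.val_rev]
  have he : e p = Sum.map id Fin.rev u := by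
    rw [hu]
    rfl
  simp only [Function.comp_apply, he]
  rcases u with u | u
  · simp only [finSumFinEquiv_apply_left, Fin.val_castAdd] at hu'
    simp only [Sum.map_inl, id, Sum.elim_inl, l1]
    congr 1
    omega
  · simp only [finSumFinEquiv_apply_right, Fin.val_natAdd] at hu'
    simp only [Sum.map_inr, Sum.elim_inr, Fin.val_rev]
    congr 1
    omega

end Vale.Agent.P197
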