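import Vale.Agent.P197.Garnir

namespace Vale.Agent.P197

open Equiv Finset

set_option linter.unusedSectionVars false

section

variable {P Q : Type} [Fintype P] [DecidableEq P] [Fintype Q] [DecidableEq Q]

theorem exists_equiv_of_cnt_eq {f : P → ℕ} {g : Q → ℕ} (h : cnt f = cnt g) :
    ∃ e : P ≃ Q, g ∘ e = f := by
  have h1 : ∀ i, Fintype.card {p // f p = i} = Fintype.card {q // g q = i} := by
    intro i
    rw [Fintype.card_subtype, Fintype.card_subtype]
    exact congrFun h i
  refine ⟨Equiv.ofFiberEquiv fun i => Fintype.equivOfCardEq (h1 i), ?_⟩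
  ext p
  exact Equiv.ofFiberEquiv_map _ p

theorem finite_cnt (ν : ℕ → ℕ) : {f : P → ℕ | cnt f = ν}.Finite := by
  by_cases h : ∃ f0 : P → ℕ, cnt f0 = ν
  · obtain ⟨f0, h0⟩ := h
    refine (Set.finite_range fun σ : Perm P => f0 ∘ σ).subset ?_
    intro f hf
    obtain ⟨e, he⟩ := exists_equiv_of_cnt_eq (f := f) (g := f0) (hf.trans h0.symm)
    exact ⟨e, he⟩
  · push Not at h
    convert Set.finite_empty
    ext f
    simpa using h f

theorem cnt_gw (f : P → ℕ) (j : ℕ) {Z Y : Finset P} (h : Y ⊆ Z) (v : ℕ) :
    cnt (gw f j Z Y) v = (if v = j + 1 then Y.card else 0) + (if v = j then Z.card - Y.card else 0)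
      + ((univ \ Z).filter fun p => f p = v).card := by
  have h1 : (univ.filter fun p => gw f j Z Y p = v) =
      (if v = j + 1 then Y else ∅) ∪ (if v = j then Z \ Y else ∅) ∪
        ((univ \ Z).filter fun p => f p = v) := by
    ext p
    have hYZ := @h p
    simp only [Finset.mem_filter, Finset.mem_univ, true_and, Finset.mem_union,
      Finset.mem_sdiff]
    unfold gw
    by_cases c : p ∈ Y
    · have d := hYZ c
      rw [if_pos c]
      split_ifs <;> simp [c, d] <;> omega
    · rw [if_neg c]
      by_cases d : p ∈ Z
      · rw [if_pos d]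
        split_ifs <;> simp [c, d] <;> omega
      · rw [if_neg d]
        split_ifs <;> simp [c, d]
  unfold cnt
  rw [h1, Finset.card_union_of_disjoint, Finset.card_union_of_disjoint]
  · congr 2
    · split_ifs <;> simp
    · split_ifs
      · exact Finset.card_sdiff_of_subset h
      · simp
  · rw [Finset.disjoint_left]
    intro p
    split_ifs <;> simp +contextual
  · rw [Finset.disjoint_left]
    intro p
    have := @h p
    split_ifs <;> simp +contextual <;> tauto

end

/-- rank of a position inside its row -/
def rk {n : ℕ} (f : Fin n → ℕ) (p : Fin n) : ℕ := (univ.filter fun q => q < p ∧ f q = f p).card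

theorem rk_lt_rk {n : ℕ} (f : Fin n → ℕ) {p q : Fin n} (h : p < q) (hf : f p = f q) :
    rk f p < rk f q := by
  apply Finset.card_lt_card
  rw [Finset.ssubset_iff_of_subset]
  · exact ⟨p, by simp [h, hf], by simp⟩
  · intro x
    simp only [Finset.mem_filter, Finset.mem_univ, true_and]
    rintro ⟨h1, h2⟩
    exact ⟨h1.trans h, h2.trans hf⟩

theorem good_rk_left {n : ℕ} (f : Fin n → ℕ) : Good (rk f) f where
  inj p q h1 h2 := by
    rcases lt_trichotomy p q with h | h | h
    · exact absurd h2 (rk_lt_rk f h h1).ne
    · exact h
    · exact absurd h2.symm (rk_lt_rk f h h1.symm).ne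
  lt p := by
    apply Finset.card_lt_card
    rw [Finset.ssubset_iff_of_subset]
    · exact ⟨p, by simp, by simp⟩
    · intro x
      simp +contextual

theorem Good.symm {P : Type} [Fintype P] [DecidableEq P] {row col : P → ℕ} (hG : Good row col)
    (hanti : Antitone (cnt col)) : Good col row where
  inj p q h1 h2 := hG.inj p q h2 h1
  lt p := by
    have h1 : range (col p + 1) ⊆ (univ.filter fun q => row q = row p).image col := by
      intro i hi
      rw [Finset.mem_range] at hi
      have h2 : row p < cnt col i := lt_of_lt_of_le (hG.lt p) (hanti (by omega))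
      obtain ⟨q, hq⟩ : (univ.filter fun q => col q = i).Nonempty :=
        Finset.card_pos.1 (lt_of_le_of_lt (Nat.zero_le _) h2)
      have hq' : col q = i := by simpa using hq
      obtain ⟨q', h3, h4⟩ := hG.surj q (i := row p) (by rwa [hq'])
      exact Finset.mem_image.2 ⟨q', by simpa using h4, h3.trans hq'⟩
    have := (Finset.card_le_card h1).trans Finset.card_image_le
    rw [Finset.card_range] at this
    exact this

theorem mem_Lb_of_garnir {n : ℕ} {ν : ℕ → ℕ} (hanti : Antitone ν) (k : ℕ) :
    ∀ φ : (Fin n → ℕ) → ZMod 2, (∀ f, φ f ≠ 0 → cnt f = ν) →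
      (∀ f j Z i, Z.card = ν j + 1 → 1 ≤ i → i ≤ ν (j + 1) →
        ∑ Y ∈ Z.powersetCard i, φ (gw f j Z Y) = 0) →
      {g : Fin n → ℕ | cnt g = ν ∧ ∃ f, φ f ≠ 0 ∧ toLex f ≤ toLex g}.ncard ≤ k →
      φ ∈ Lb (Fin n) ν := by
  classical
  have hfin : ∀ φ : (Fin n → ℕ) → ZMod 2,
      {g : Fin n → ℕ | cnt g = ν ∧ ∃ f, φ f ≠ 0 ∧ toLex f ≤ toLex g}.Finite :=
    fun φ => (finite_cnt ν).subset fun g hg => hg.1
  induction k with
  | zero =>
    intro φ hs _ hk
    have h0 := (Set.ncard_eq_zero (hfin φ)).1 (Nat.le_zero.1 hk)
    have : φ = 0 := by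
      funext f
      by_contra hne
      have : f ∈ {g : Fin n → ℕ | cnt g = ν ∧ ∃ f, φ f ≠ 0 ∧ toLex f ≤ toLex g} :=
        ⟨hs f hne, f, hne, le_rfl⟩
      rw [h0] at this
      exact this
    rw [this]
    exact (Lb _ ν).zero_mem
  | succ k ih =>
    intro φ hs hg hk
    by_cases h0 : φ = 0
    · rw [h0]
      exact (Lb _ ν).zero_mem
    have hne : {f | φ f ≠ 0}.Nonempty := by
      by_contra h
      apply h0
      funext f
      by_contra h'
      exact h ⟨f, h'⟩
    obtain ⟨f, hf, hmin⟩ := Set.exists_min_image {f | φ f ≠ 0} (fun f => toLex f)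
      ((finite_cnt ν).subset fun g hg => hs g hg) hne
    have hf0 : φ f ≠ 0 := hf
    have hfc : cnt f = ν := hs f hf
    have hG : Good f (rk f) := (good_rk_left f).symm (by rw [hfc]; exact hanti)
    have hadj : ∀ p q, rk f p = rk f q → f q = f p + 1 → p < q := by
      intro p q hr hpq
      by_contra hlt
      have hqp : q < p := lt_of_le_of_ne (not_lt.1 hlt) (by rintro rfl; omega)
      let A : Finset (Fin n) := univ.filter fun a => p ≤ a ∧ f a = f p
      let B : Finset (Fin n) := univ.filter fun b => b ≤ q ∧ f b = f q
      have hA : A.card + rk f p = ν (f p) := by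
        rw [← hfc]
        unfold cnt rk
        rw [← Finset.card_union_of_disjoint]
        · congr 1
          ext a
          simp only [A, Finset.mem_union, Finset.mem_filter, Finset.mem_univ, true_and]
          rcases le_or_gt p a with h | h
          · simp [h, h.not_gt]
          · simp [h, h.not_ge]
        · rw [Finset.disjoint_left]
          intro a
          simp only [A, Finset.mem_filter, Finset.mem_univ, true_and]
          rintro ⟨h1, -⟩ ⟨h2, -⟩
          exact absurd h1 (not_le.2 h2)
      have hB : B.card = rk f q + 1 := by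
        unfold rk
        rw [← Finset.card_insert_of_notMem (a := q) (by simp)]
        congr 1
        ext a
        simp only [B, Finset.mem_insert, Finset.mem_filter, Finset.mem_univ, true_and]
        rcases lt_trichotomy a q with h | h | h
        · simp [h, h.le, h.ne]
        · simp [h]
        · simp [h.not_ge, h.not_gt, h.ne']
      have hAB : Disjoint A B := by
        rw [Finset.disjoint_left]
        intro a
        simp only [A, B, Finset.mem_filter, Finset.mem_univ, true_and]
        rintro ⟨-, h1⟩ ⟨-, h2⟩
        omega
      have hBle : B.card ≤ ν (f p + 1) := by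
        rw [← hfc, ← hpq]
        apply Finset.card_le_card
        intro a
        simp +contextual [B]
      have hsum := hg f (f p) (A ∪ B) B.card
        (by rw [Finset.card_union_of_disjoint hAB]; omega) (by omega) hBle
      rw [Finset.sum_eq_single B] at hsum
      · apply hf0
        convert hsum
        ext a
        simp only [gw, A, B, Finset.mem_union, Finset.mem_filter, Finset.mem_univ, true_and]
        split_ifs with h1 h2
        · omega
        · rcases h2 with h2 | h2
          · exact h2.2
          · exact absurd h2 h1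
        · rfl
      · intro Y hY hYB
        rw [Finset.mem_powersetCard] at hY
        by_contra hne
        have hne' : (B \ Y).Nonempty := by
          rw [Finset.sdiff_nonempty]
          intro hsub
          exact hYB (Finset.eq_of_subset_of_card_le hsub hY.2.le).symm
        refine absurd (hmin _ hne) (not_le.2 ⟨(B \ Y).min' hne', ?_, ?_⟩)
        · intro a ha
          have hb := Finset.min'_mem _ hne'
          have hb1 : (B \ Y).min' hne' ≤ q := by
            have := (Finset.mem_sdiff.1 hb).1
            simp only [B, Finset.mem_filter, Finset.mem_univ, true_and] at this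
            exact this.1
          have haA : a ∉ A := by
            simp only [A, Finset.mem_filter, Finset.mem_univ, true_and]
            rintro ⟨h1, -⟩
            exact absurd (lt_of_lt_of_le ha hb1) (not_lt.2 (hqp.le.trans h1))
          have haB : a ∈ B → f a = f p + 1 := by
            simp only [B, Finset.mem_filter, Finset.mem_univ, true_and]
            rintro ⟨-, h1⟩
            omega
          simp only [Pi.toLex_apply, gw]
          split_ifs with h1 h2
          · exact (haB ((Finset.mem_union.1 (hY.1 h1)).resolve_left haA)).symm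
          · have h3 : a ∈ B \ Y :=
              Finset.mem_sdiff.2 ⟨(Finset.mem_union.1 h2).resolve_left haA, h1⟩
            exact absurd (Finset.min'_le _ _ h3) (not_le.2 ha)
          · rfl
        · have hb := Finset.mem_sdiff.1 (Finset.min'_mem _ hne')
          have hb2 : f ((B \ Y).min' hne') = f q := by
            have := hb.1
            simp only [B, Finset.mem_filter, Finset.mem_univ, true_and] at this
            exact this.2
          simp only [Pi.toLex_apply, gw, hb.2, if_false, Finset.mem_union, hb.1, or_true, if_true]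
          omega
      · intro h
        exact absurd (Finset.mem_powersetCard.2 ⟨Finset.subset_union_right, rfl⟩) h
    have hstd : ∀ d p q, rk f p = rk f q → f q = f p + d + 1 → p < q := by
      intro d
      induction d with
      | zero => exact hadj
      | succ d ihd =>
        intro p q hr hpq
        obtain ⟨s, h1, h2⟩ := hG.surj q (i := f p + d + 1) (by have := hG.lt q; omega)
        exact (ihd p s (hr.trans h1.symm) h2).trans (hadj s q h1 (by omega))
    have hlow : ∀ g, pt f (rk f) g ≠ 0 → toLex f ≤ toLex g := by
      intro g hg'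
      by_contra hlt
      obtain ⟨p, h1, h2⟩ := not_le.1 hlt
      simp only [Pi.toLex_apply] at h1 h2
      obtain ⟨σ, hσ, hgσ⟩ := exists_of_pt_ne_zero hg'
      rw [mem_colGrp] at hσ
      have h3 : g p = f (σ p) := congrFun hgσ p
      have h4 : σ p < p := hstd (f p - f (σ p) - 1) _ _ (hσ p) (by omega)
      exact h4.ne (hG.inj_of_pt_ne_zero hg' (hσ p) ((h1 _ h4).trans h3.symm))
    have hφ1 : φ f = 1 := by
      revert hf0
      generalize φ f = z
      revert z
      decide
    have hpt : (fun g => (pt f (rk f) g : ZMod 2)) ∈ Lb (Fin n) ν := hfc ▸ pt_mem_Lb hG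
    have hφ' : (φ - fun g => (pt f (rk f) g : ZMod 2)) ∈ Lb (Fin n) ν := by
      apply ih
      · intro g hg'
        by_cases h1 : φ g = 0
        · apply cnt_eq_of_Lb hpt
          intro h2
          apply hg'
          simp only [Pi.sub_apply, h1, h2, sub_self]
        · exact hs g h1
      · intro g j Z i h1 h2 h3
        simp only [Pi.sub_apply, Finset.sum_sub_distrib]
        rw [hg g j Z i h1 h2 h3, garnir_Lb hpt g j Z (by omega) i, sub_self]
      · have hlt : ∀ g, (φ - fun g => (pt f (rk f) g : ZMod 2)) g ≠ 0 → toLex f < toLex g := by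
          intro g hg'
          refine lt_of_le_of_ne ?_ ?_
          · by_cases h1 : φ g = 0
            · apply hlow
              intro h2
              apply hg'
              simp [h1, h2]
            · exact hmin g h1
          · intro h1
            have h2 : f = g := toLex.injective h1
            apply hg'
            rw [← h2]
            simp [hφ1, pt_self hG]
        refine Nat.le_of_lt_succ (lt_of_lt_of_le (Set.ncard_lt_ncard ?_ (hfin φ)) hk)
        rw [Set.ssubset_iff_of_subset]
        · refine ⟨f, ⟨hfc, f, hf0, le_rfl⟩, ?_⟩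
          rintro ⟨-, g, h1, h2⟩
          exact absurd (hlt g h1) (not_lt.2 h2)
        · rintro g ⟨h1, g', h2, h3⟩
          exact ⟨h1, f, hf0, (hlt g' h2).le.trans h3⟩
    have := (Lb (Fin n) ν).add_mem hφ' hpt
    rwa [sub_add_cancel] at this

open scoped Classical in
/-- the easy half of James' theorem on trivial submodules of Specht modules -/
theorem james {n : ℕ} {ν : ℕ → ℕ} (hanti : Antitone ν)
    (hev : ∀ j i, 1 ≤ i → i ≤ ν (j + 1) → Even ((ν j + 1).choose i)) :
    (fun f : Fin n → ℕ => if cnt f = ν then (1 : ZMod 2) else 0) ∈ Lb (Fin n) ν := by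
  refine mem_Lb_of_garnir hanti _ _ ?_ ?_ le_rfl
  · intro f hf
    by_contra h
    exact hf (if_neg h)
  · intro f j Z i h1 h2 h3
    by_cases h : ∃ Y0 ∈ Z.powersetCard i, cnt (gw f j Z Y0) = ν
    · obtain ⟨Y0, h4, h5⟩ := h
      rw [Finset.sum_congr rfl (g := fun _ => 1)]
      · rw [Finset.sum_const, Finset.card_powersetCard, h1, nsmul_eq_mul, mul_one]
        exact (ZMod.natCast_eq_zero_iff_even).2 (hev j i h2 h3)
      · intro Y hY
        rw [if_pos]
        rw [Finset.mem_powersetCard] at h4 hY
        refine Eq.trans ?_ h5
        funext v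
        rw [cnt_gw f j hY.1, cnt_gw f j h4.1, hY.2, h4.2]
    · push Not at h
      exact Finset.sum_eq_zero fun Y hY => if_neg (h Y hY)

end Vale.Agent.P197
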